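import Mathlib.Computability.TuringDegree
import Mathlib.Computability.PartrecCode
import Mathlib.Order.Filter.AtTopBot.Basic
import Mathlib.Order.Filter.Finite
import Mathlib.Order.Filter.AtTopBot.Tendsto
import Mathlib.Data.Set.Countable

/-! Functionals on Cantor space given by primitive recursive maps on finite strings. -/

namespace Vale.Agent.P327

open Filter

abbrev X := ℕ → Bool

/-- The first `N` bits. -/
def pre (x : X) (N : ℕ) : List Bool := (List.range N).map x

@[simp] theorem pre_length (x : X) (N : ℕ) : (pre x N).length = N := by simp [pre]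

theorem pre_getElem? (x : X) (N i : ℕ) : (pre x N)[i]? = if i < N then some (x i) else none := by
  unfold pre
  by_cases h : i < N
  · simp [h]
  · simp [h]

/-- The string `L` is an initial segment of `x`. -/
def IsPre (L : List Bool) (x : X) : Prop := ∀ i v, L[i]? = some v → x i = v

theorem isPre_pre (x : X) (N : ℕ) : IsPre (pre x N) x := by
  intro i v h
  rw [pre_getElem?] at h
  split_ifs at h
  simpa using h

theorem IsPre.eq_pre {L : List Bool} {x : X} (h : IsPre L x) : L = pre x L.length := by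
  apply List.ext_getElem?
  intro i
  rw [pre_getElem?]
  split_ifs with hi
  · have := h i L[i] (by simp [hi])
    simp [hi, this]
  · simp at hi; simp [hi]

theorem IsPre.getElem? {L : List Bool} {x : X} (h : IsPre L x) {i : ℕ} (hi : i < L.length) :
    L[i]? = some (x i) := by
  have := h i L[i] (by simp [hi])
  simp [hi, this]

theorem pre_congr {x y : X} {N : ℕ} (h : ∀ i < N, x i = y i) : pre x N = pre y N := by
  apply List.ext_getElem?
  intro i
  rw [pre_getElem?, pre_getElem?]
  split_ifs with hi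
  · rw [h i hi]
  · rfl

abbrev Fn := List Bool → List Bool

/-- The string map `Φ` sends `y` to `x`. -/
def Comp (Φ : Fn) (y x : X) : Prop :=
  (∀ N, IsPre (Φ (pre y N)) x) ∧ Tendsto (fun N => (Φ (pre y N)).length) atTop atTop

theorem Comp.id (x : X) : Comp id x x :=
  ⟨fun N => isPre_pre x N, tendsto_id.congr fun N => by simp⟩

theorem Comp.comp {Φ Ψ : Fn} {x y z : X} (h1 : Comp Φ x y) (h2 : Comp Ψ y z) :
    Comp (Ψ ∘ Φ) x z := by
  refine ⟨fun N => ?_, ?_⟩
  · have := h2.1 (Φ (pre x N)).length
    rw [← (h1.1 N).eq_pre] at this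
    exact this
  · have := h2.2.comp h1.2
    refine this.congr fun N => ?_
    simp only [Function.comp]
    rw [← (h1.1 N).eq_pre]

theorem Comp.ev {Φ : Fn} {y x : X} (h : Comp Φ y x) (i : ℕ) :
    ∀ᶠ N in atTop, (Φ (pre y N))[i]? = some (x i) := by
  filter_upwards [h.2.eventually (eventually_gt_atTop i)] with N hN
  exact (h.1 N).getElem? hN

/-- Turn a bitwise approximation into a string map. -/
def ofM (M : List Bool → ℕ → Option Bool) : Fn := fun L =>
  (List.range ((List.range L.length).findIdx fun n => !(M L n).isSome)).map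
    fun n => (M L n).getD false

theorem ofM_primrec {M : List Bool → ℕ → Option Bool} (hM : Primrec₂ M) : Primrec (ofM M) := by
  unfold ofM
  refine Primrec.list_map (Primrec.list_range.comp (Primrec.list_findIdx
    (Primrec.list_range.comp Primrec.list_length) ?_)) ?_
  · exact (Primrec.not.comp (Primrec.option_isSome.comp hM)).to₂
  · exact (Primrec.option_getD.comp hM (Primrec.const false)).to₂

theorem ofM_comp {M : List Bool → ℕ → Option Bool} {y x : X}
    (hs : ∀ N n v, M (pre y N) n = some v → x n = v)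
    (hc : ∀ n, ∀ᶠ N in atTop, (M (pre y N) n).isSome) : Comp (ofM M) y x := by
  refine ⟨fun N i v h => ?_, ?_⟩
  · unfold ofM at h
    simp only [List.getElem?_map, pre_length, Option.map_eq_some_iff] at h
    obtain ⟨a, ha, hv⟩ := h
    rw [List.getElem?_eq_some_iff] at ha
    obtain ⟨hi, rfl⟩ := ha
    simp only [List.length_range] at hi
    simp only [List.getElem_range] at hv
    have hi' : i < (List.range N).length := lt_of_lt_of_le hi List.findIdx_le_length
    have := List.not_of_lt_findIdx hi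
    simp only [List.getElem_range, Bool.not_eq_eq_eq_not, Bool.not_false] at this
    obtain ⟨w, hw⟩ := Option.isSome_iff_exists.1 this
    rw [hw] at hv
    simp only [Option.getD_some] at hv
    subst hv
    exact hs N i w hw
  · rw [tendsto_atTop]
    intro b
    have h1 : ∀ᶠ N in atTop, ∀ n ∈ Finset.range b, (M (pre y N) n).isSome :=
      (Filter.eventually_all_finset _).2 fun n _ => hc n
    filter_upwards [h1, eventually_ge_atTop b] with N hN hb
    unfold ofM
    simp only [pre_length, List.length_map, List.length_range]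
    by_contra hlt
    push Not at hlt
    have hlen : List.findIdx (fun n => !(M (pre y N) n).isSome) (List.range N) <
        (List.range N).length := by rw [List.length_range]; omega
    have := List.findIdx_getElem (w := hlen)
    simp only [List.getElem_range, Bool.not_eq_eq_eq_not, Bool.not_true] at this
    have h2 := hN _ (Finset.mem_range.2 hlt)
    rw [this] at h2
    exact absurd h2 (by simp)

/-- Uniform reducibility of the family `B` to the family `A`. -/
def URed {ι : Type} (A B : ι → X) : Prop := ∃ Φ : Fn, Primrec Φ ∧ ∀ i, Comp Φ (A i) (B i)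

/-- `Le x y`: `x` is computed from `y`. -/
def Le (x y : X) : Prop := ∃ Φ : Fn, Primrec Φ ∧ Comp Φ y x

theorem le_iff_ured {x y : X} : Le x y ↔ URed (fun _ : Unit => y) (fun _ => x) :=
  ⟨fun ⟨Φ, h, h'⟩ => ⟨Φ, h, fun _ => h'⟩, fun ⟨Φ, h, h'⟩ => ⟨Φ, h, h' ()⟩⟩

theorem URed.refl {ι : Type} (A : ι → X) : URed A A := ⟨id, Primrec.id, fun _ => Comp.id _⟩

theorem URed.trans {ι : Type} {A B C : ι → X} (h1 : URed A B) (h2 : URed B C) : URed A C := by
  obtain ⟨Φ, hΦ, h1⟩ := h1
  obtain ⟨Ψ, hΨ, h2⟩ := h2
  exact ⟨Ψ ∘ Φ, hΨ.comp hΦ, fun i => (h1 i).comp (h2 i)⟩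

theorem URed.of_eq {ι : Type} {A B C : ι → X} (h1 : URed A B) (h : ∀ i, B i = C i) : URed A C :=
  (funext h : B = C) ▸ h1

theorem URed.ofM {ι : Type} {A B : ι → X} {M : List Bool → ℕ → Option Bool} (hM : Primrec₂ M)
    (hs : ∀ i N n v, M (pre (A i) N) n = some v → B i n = v)
    (hc : ∀ i n, ∀ᶠ N in atTop, (M (pre (A i) N) n).isSome) : URed A B :=
  ⟨_, ofM_primrec hM, fun i => ofM_comp (hs i) (hc i)⟩

theorem URed.map₂ {ι : Type} {A B C : ι → X} (hB : URed A B) (hC : URed A C)
    {u v : ℕ → ℕ} {φ : ℕ → Bool → Bool → Bool} (hu : Primrec u) (hv : Primrec v)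
    (hφ : Primrec fun p : ℕ × Bool × Bool => φ p.1 p.2.1 p.2.2) :
    URed A fun i n => φ n (B i (u n)) (C i (v n)) := by
  obtain ⟨Φ, hΦ, h1⟩ := hB
  obtain ⟨Ψ, hΨ, h2⟩ := hC
  refine URed.ofM (M := fun L n => ((Φ L)[u n]?).bind fun b => ((Ψ L)[v n]?).map fun c => φ n b c)
    ?_ ?_ ?_
  · refine Primrec.option_bind (Primrec.list_getElem?.comp (hΦ.comp Primrec.fst)
      (hu.comp Primrec.snd)) ?_
    refine Primrec.option_map (Primrec.list_getElem?.comp (hΨ.comp (Primrec.fst.comp Primrec.fst))
      (hv.comp (Primrec.snd.comp Primrec.fst))) ?_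
    exact (hφ.comp (Primrec.pair (Primrec.snd.comp (Primrec.fst.comp Primrec.fst))
      (Primrec.pair (Primrec.snd.comp Primrec.fst) Primrec.snd))).to₂
  · intro i N n w h
    simp only [Option.bind_eq_some_iff, Option.map_eq_some_iff] at h
    obtain ⟨b, hb, c, hc, rfl⟩ := h
    rw [(h1 i).1 N _ _ hb, (h2 i).1 N _ _ hc]
  · intro i n
    filter_upwards [(h1 i).ev (u n), (h2 i).ev (v n)] with N ha hb
    simp [ha, hb]

theorem URed.map₁ {ι : Type} {A B : ι → X} (hB : URed A B)
    {u : ℕ → ℕ} {φ : ℕ → Bool → Bool} (hu : Primrec u) (hφ : Primrec₂ φ) :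
    URed A fun i n => φ n (B i (u n)) :=
  URed.map₂ hB hB (v := u) (φ := fun n b _ => φ n b) hu hu
    (hφ.comp Primrec.fst (Primrec.fst.comp Primrec.snd))

theorem URed.reindex {ι : Type} {A B : ι → X} (hB : URed A B) {u : ℕ → ℕ} (hu : Primrec u) :
    URed A fun i n => B i (u n) :=
  URed.map₁ hB (φ := fun _ b => b) hu Primrec₂.right

theorem URed.bool₂ {ι : Type} {A B C : ι → X} (hB : URed A B) (hC : URed A C)
    (φ : Bool → Bool → Bool) : URed A fun i n => φ (B i n) (C i n) :=
  URed.map₂ hB hC (u := id) (v := id) (φ := fun _ => φ) Primrec.id Primrec.id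
    ((Primrec.dom_bool₂ φ).comp (Primrec.fst.comp Primrec.snd) (Primrec.snd.comp Primrec.snd))

theorem URed.const {ι : Type} (A : ι → X) {x : X} (hx : Primrec x) : URed A fun _ => x :=
  URed.map₁ (URed.refl A) (u := id) (φ := fun n _ => x n) Primrec.id (hx.comp Primrec.fst).to₂

/-- The join. -/
def join (x y : X) : X := fun n => if n % 2 = 0 then x (n / 2) else y (n / 2)

theorem primrec_half : Primrec fun n : ℕ => n / 2 :=
  Primrec.nat_div.comp Primrec.id (Primrec.const 2)

theorem primrec_even : PrimrecPred fun n : ℕ => n % 2 = 0 :=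
  Primrec.eq.comp (Primrec.nat_mod.comp Primrec.id (Primrec.const 2)) (Primrec.const 0)

theorem URed.join {ι : Type} {A B C : ι → X} (hB : URed A B) (hC : URed A C) :
    URed A fun i => join (B i) (C i) :=
  URed.map₂ hB hC (φ := fun n b c => if n % 2 = 0 then b else c) primrec_half primrec_half
    (Primrec.ite (primrec_even.comp Primrec.fst) (Primrec.fst.comp Primrec.snd)
      (Primrec.snd.comp Primrec.snd))

theorem URed.left {ι : Type} {A B C : ι → X} (h : URed A fun i => P327.join (B i) (C i)) :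
    URed A B :=
  (h.reindex Primrec.nat_double).of_eq fun i => by
    funext n; simp [P327.join]

theorem URed.right {ι : Type} {A B C : ι → X} (h : URed A fun i => P327.join (B i) (C i)) :
    URed A C :=
  (h.reindex Primrec.nat_double_succ).of_eq fun i => by
    funext n
    have h1 : (2 * n + 1) % 2 = 1 := by omega
    have h2 : (2 * n + 1) / 2 = n := by omega
    simp [P327.join, h1, h2]

theorem URed.add {ι : Type} {A B C : ι → X} (hB : URed A B) (hC : URed A C) :
    URed A fun i n => xor (B i n) (C i n) := hB.bool₂ hC xor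

/-- Choose between two reals according to bit `k` of a third one. -/
theorem URed.sel {ι : Type} {A B C D : ι → X} (hB : URed A B) (hC : URed A C) (hD : URed A D)
    (k : ℕ) : URed A fun i => cond (B i k) (C i) (D i) := by
  have hb : URed A fun i _ => B i k := hB.reindex (Primrec.const k)
  have h1 := hb.bool₂ hC and
  have h2 := hb.bool₂ hD (fun b d => !b && d)
  refine (h1.bool₂ h2 or).of_eq fun i => ?_
  funext n
  cases B i k <;> simp

theorem URed.app {ι : Type} {A B C : ι → X} {Φ : Fn} (hΦ : Primrec Φ) (hB : URed A B)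
    (h : ∀ i, Comp Φ (B i) (C i)) : URed A C := hB.trans ⟨Φ, hΦ, h⟩

/-- Iterating a fixed functional. -/
theorem le_of_iter {s : ℕ → X} (h : URed s fun j => s (j + 1)) {w : ℕ → X} (hw : URed s w) :
    Le (fun j => w j 0) (s 0) := by
  obtain ⟨Ψ, hΨ, h⟩ := h
  obtain ⟨Θ, hΘ, hw⟩ := hw
  have key : ∀ j, Comp (Ψ^[j]) (s 0) (s j) := by
    intro j
    induction j with
    | zero => exact Comp.id _
    | succ j ih => rw [Function.iterate_succ']; exact ih.comp (h j)
  rw [le_iff_ured]
  refine URed.ofM (M := fun L j => (Θ (Ψ^[j] L))[0]?) ?_ ?_ ?_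
  · exact Primrec.list_getElem?.comp (hΘ.comp (Primrec.nat_iterate Primrec.snd Primrec.fst
      (hΨ.comp Primrec.snd).to₂)) (Primrec.const 0)
  · intro _ N j v hv
    exact ((key j).comp (hw j)).1 N 0 v hv
  · intro _ j
    filter_upwards [((key j).comp (hw j)).ev 0] with N hN
    simp only [Function.comp] at hN
    simp [hN]

/-! ### The preorder -/

theorem Le.refl (x : X) : Le x x := le_iff_ured.2 (URed.refl _)

theorem Le.trans {x y z : X} (h1 : Le x y) (h2 : Le y z) : Le x z :=
  le_iff_ured.2 ((le_iff_ured.1 h2).trans (le_iff_ured.1 h1))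

theorem Le.join {x y z : X} (h1 : Le x z) (h2 : Le y z) : Le (join x y) z :=
  le_iff_ured.2 ((le_iff_ured.1 h1).join (le_iff_ured.1 h2))

theorem le_join_left (x y : X) : Le x (join x y) :=
  le_iff_ured.2 (URed.left (C := fun _ => y) (URed.refl _))

theorem le_join_right (x y : X) : Le y (join x y) :=
  le_iff_ured.2 (URed.right (B := fun _ => x) (URed.refl _))

theorem Le.reindex {x z : X} (h : Le x z) {u : ℕ → ℕ} (hu : Primrec u) : Le (fun n => x (u n)) z :=
  le_iff_ured.2 ((le_iff_ured.1 h).reindex hu)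

theorem Le.bool₂ {x y z : X} (h1 : Le x z) (h2 : Le y z) (φ : Bool → Bool → Bool) :
    Le (fun n => φ (x n) (y n)) z :=
  le_iff_ured.2 ((le_iff_ured.1 h1).bool₂ (le_iff_ured.1 h2) φ)

theorem Le.map₁ {x z : X} (h : Le x z) {u : ℕ → ℕ} {φ : ℕ → Bool → Bool} (hu : Primrec u)
    (hφ : Primrec₂ φ) : Le (fun n => φ n (x (u n))) z :=
  le_iff_ured.2 ((le_iff_ured.1 h).map₁ hu hφ)

theorem Le.of_primrec {x : X} (hx : Primrec x) (z : X) : Le x z :=
  le_iff_ured.2 (URed.const _ hx)

theorem Le.of_eq {x y z : X} (h : Le x z) (e : ∀ n, x n = y n) : Le y z :=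
  (funext e : x = y) ▸ h

/-- Equivalence. -/
def Eqv (x y : X) : Prop := Le x y ∧ Le y x

theorem Eqv.refl (x : X) : Eqv x x := ⟨Le.refl x, Le.refl x⟩
theorem Eqv.symm {x y : X} (h : Eqv x y) : Eqv y x := ⟨h.2, h.1⟩
theorem Eqv.trans {x y z : X} (h : Eqv x y) (h' : Eqv y z) : Eqv x z :=
  ⟨h.1.trans h'.1, h'.2.trans h.2⟩

/-! ### Countably many functionals -/

/-- The primitive recursive string maps. -/
def PF : Type := {Φ : Fn // Primrec Φ}

instance : Countable PF := by
  have key : ∀ Φ : PF, ∃ c : Nat.Partrec.Code, c.eval =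
      fun n => Part.some (Encodable.encode ((Encodable.decode (α := List Bool) n).map Φ.1)) := by
    intro Φ
    exact Nat.Partrec.Code.exists_code.1 (Nat.Partrec.of_primrec Φ.2)
  choose c hc using key
  refine Function.Injective.countable (f := c) fun Φ Ψ h => ?_
  apply Subtype.ext
  funext L
  have := congrFun ((hc Φ).symm.trans ((congrArg Nat.Partrec.Code.eval h).trans (hc Ψ)))
    (Encodable.encode L)
  simpa using this

open Classical in
/-- The output of a string map on an oracle. -/
noncomputable def ev (Φ : Fn) (y : X) : X := fun i => decide (∃ N, (Φ (pre y N))[i]? = some true)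

theorem Comp.ev_eq {Φ : Fn} {y x : X} (h : Comp Φ y x) : P327.ev Φ y = x := by
  funext i
  unfold P327.ev
  cases hx : x i
  · simp only [decide_eq_false_iff_not, not_exists]
    intro N hN
    have := h.1 N i true hN
    simp [hx] at this
  · simp only [decide_eq_true_eq]
    obtain ⟨N, hN⟩ := (h.ev i).exists
    exact ⟨N, by rw [hN, hx]⟩

theorem Le.exists_ev {x y : X} (h : Le x y) : ∃ Φ : PF, ev Φ.1 y = x := by
  obtain ⟨Φ, hΦ, h⟩ := h
  exact ⟨⟨Φ, hΦ⟩, h.ev_eq⟩

theorem countable_le (y : X) : {x | Le x y}.Countable := by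
  refine (Set.countable_range fun Φ : PF => ev Φ.1 y).mono fun x hx => ?_
  exact Le.exists_ev hx

theorem le_iff_exists_pf {x y : X} : Le x y ↔ ∃ Φ : PF, Comp Φ.1 y x :=
  ⟨fun ⟨Φ, h, h'⟩ => ⟨⟨Φ, h⟩, h'⟩, fun ⟨Φ, h⟩ => ⟨Φ.1, Φ.2, h⟩⟩

end Vale.Agent.P327
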