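import Mathlib.Topology.Baire.BaireMeasurable
import Mathlib.Topology.Baire.Lemmas
import Mathlib.Topology.Baire.CompleteMetrizable
import Mathlib.Topology.MetricSpace.PiNat
import Mathlib.Topology.MetricSpace.Polish

/-! The Kuratowski-Ulam theorem and localization lemmas for Baire category. -/

namespace Vale.Agent.P327

open Filter Set TopologicalSpace

variable {A B : Type*} [TopologicalSpace A] [TopologicalSpace B]

theorem ku_open [SecondCountableTopology B] {s : Set (A × B)} (ho : IsOpen s) (hd : Dense s) :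
    ∀ᶠ x in residual A, ∀ᶠ y in residual B, (x, y) ∈ s := by
  have h1 : ∀ᶠ x in residual A, ∀ V ∈ countableBasis B, ∃ y ∈ V, (x, y) ∈ s := by
    rw [eventually_countable_ball (countable_countableBasis B)]
    intro V hV
    have hVo := isOpen_of_mem_countableBasis hV
    have hVn := nonempty_of_mem_countableBasis hV
    have e : {x | ∃ y ∈ V, (x, y) ∈ s} = Prod.fst '' (s ∩ univ ×ˢ V) := by
      ext x; simp only [mem_ofPred_eq, mem_image, mem_inter_iff, mem_prod, mem_univ, true_and,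
        Prod.exists, exists_and_right, exists_eq_right]
      exact ⟨fun ⟨y, h1, h2⟩ => ⟨y, h2, h1⟩, fun ⟨y, h1, h2⟩ => ⟨y, h2, h1⟩⟩
    refine residual_of_dense_open (s := {x | ∃ y ∈ V, (x, y) ∈ s}) ?_ ?_
    · rw [e]; exact isOpenMap_fst _ (ho.inter (isOpen_univ.prod hVo))
    · rw [dense_iff_inter_open]
      intro U hU hUn
      obtain ⟨⟨x, y⟩, ⟨hx, hy⟩, hs⟩ := hd.inter_open_nonempty (U ×ˢ V) (hU.prod hVo)
        (hUn.prod hVn)
      exact ⟨x, hx, y, hy, hs⟩
  filter_upwards [h1] with x hx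
  refine residual_of_dense_open (s := {y | (x, y) ∈ s}) (ho.preimage (Continuous.prodMk_right x)) ?_
  rw [(isBasis_countableBasis B).dense_iff]
  intro V hV _
  obtain ⟨y, hy, hs⟩ := hx V hV
  exact ⟨y, hy, hs⟩

theorem ku1 [SecondCountableTopology B] {s : Set (A × B)} (hs : s ∈ residual (A × B)) :
    ∀ᶠ x in residual A, ∀ᶠ y in residual B, (x, y) ∈ s := by
  obtain ⟨S, ho, hd, hc, hS⟩ := mem_residual_iff.1 hs
  have h1 : ∀ᶠ x in residual A, ∀ t ∈ S, ∀ᶠ y in residual B, (x, y) ∈ t :=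
    (eventually_countable_ball hc).2 fun t ht => ku_open (ho t ht) (hd t ht)
  filter_upwards [h1] with x hx
  filter_upwards [(eventually_countable_ball hc).2 hx] with y hy
  exact hS hy

theorem ku_congr [SecondCountableTopology B] {s t : Set (A × B)} (h : s =ᶠ[residual _] t) :
    ∀ᶠ x in residual A, ((∀ᶠ y in residual B, (x, y) ∈ s) ↔ ∀ᶠ y in residual B, (x, y) ∈ t) := by
  filter_upwards [ku1 (eventuallyEq_set.1 h)] with x hx
  exact eventually_congr hx

theorem ku2 [SecondCountableTopology B] [BaireSpace A] [BaireSpace B] {s : Set (A × B)}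
    (hs : BaireMeasurableSet s) (h : ∀ᶠ x in residual A, ∀ᶠ y in residual B, (x, y) ∈ s) :
    s ∈ residual (A × B) := by
  obtain ⟨O, hO, hsO⟩ := hs.residualEq_isOpen
  have h1 : ∀ᶠ x in residual A, ∀ᶠ y in residual B, (x, y) ∈ O := by
    filter_upwards [h, ku_congr hsO] with x h1 h2
    exact h2.1 h1
  have h2 : Dense O := by
    rw [dense_iff_inter_open]
    rintro W hW ⟨⟨x, y⟩, hxy⟩
    obtain ⟨U, V, hU, hV, hx, hy, hUV⟩ := isOpen_prod_iff.1 hW x y hxy
    obtain ⟨x', hx', h'⟩ := (dense_of_mem_residual h1).inter_open_nonempty U hU ⟨x, hx⟩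
    obtain ⟨y', hy', h''⟩ := (dense_of_mem_residual h').inter_open_nonempty V hV ⟨y, hy⟩
    exact ⟨(x', y'), hUV ⟨hx', hy'⟩, h''⟩
  filter_upwards [residual_of_dense_open hO h2, eventuallyEq_set.1 hsO] with p h1 h2
  exact h2.2 h1

theorem ku3 [SecondCountableTopology B] [BaireSpace B] {s : Set (A × B)}
    (hs : BaireMeasurableSet s) : BaireMeasurableSet {x | ∀ᶠ y in residual B, (x, y) ∈ s} := by
  obtain ⟨O, hO, hsO⟩ := hs.residualEq_isOpen
  have h1 : BaireMeasurableSet {x | ∀ᶠ y in residual B, (x, y) ∈ O} := by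
    have e : {x | ∀ᶠ y in residual B, (x, y) ∈ O} =
        ⋂ V ∈ countableBasis B, Prod.fst '' (O ∩ univ ×ˢ V) := by
      ext x
      simp only [mem_ofPred_eq, mem_iInter, mem_image, mem_inter_iff, mem_prod, mem_univ, true_and,
        Prod.exists, exists_and_right, exists_eq_right]
      constructor
      · intro h V hV
        obtain ⟨y, hy, h'⟩ := (dense_of_mem_residual h).inter_open_nonempty V
          (isOpen_of_mem_countableBasis hV) (nonempty_of_mem_countableBasis hV)
        exact ⟨y, h', hy⟩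
      · intro h
        refine residual_of_dense_open (s := {y | (x, y) ∈ O})
          (hO.preimage (Continuous.prodMk_right x)) ?_
        rw [(isBasis_countableBasis B).dense_iff]
        intro V hV _
        obtain ⟨y, hs, hy⟩ := h V hV
        exact ⟨y, hy, hs⟩
    rw [e]
    exact BaireMeasurableSet.biInter (countable_countableBasis B) fun V hV =>
      (isOpenMap_fst _ (hO.inter (isOpen_univ.prod (isOpen_of_mem_countableBasis hV)))).baireMeasurableSet
  refine h1.congr ?_
  rw [eventuallyEq_set]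
  filter_upwards [ku_congr hsO] with x hx
  exact hx.symm

theorem ku_swap [SecondCountableTopology A] [SecondCountableTopology B] [BaireSpace A]
    [BaireSpace B] {s : Set (A × B)}
    (hs : BaireMeasurableSet s) (h : ∀ᶠ x in residual A, ∀ᶠ y in residual B, (x, y) ∈ s) :
    ∀ᶠ y in residual B, ∀ᶠ x in residual A, (x, y) ∈ s := by
  have h1 := ku2 hs h
  have h2 : Prod.swap ⁻¹' s ∈ residual (B × A) :=
    tendsto_residual_of_isOpenMap (Homeomorph.prodComm B A).continuous
      (Homeomorph.prodComm B A).isOpenMap h1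
  exact ku1 h2

/-- A set that is frequently true for the residual filter has a point of local frequency. -/
theorem exists_point [SecondCountableTopology A] {p : A → Prop} (h : ∃ᶠ x in residual A, p x) :
    ∃ x₀, p x₀ ∧ ∀ V, IsOpen V → x₀ ∈ V → ∃ᶠ x in residual A, p x ∧ x ∈ V := by
  have h1 : ∀ᶠ x in residual A, ∀ V ∈ countableBasis A,
      (¬ ∃ᶠ x in residual A, p x ∧ x ∈ V) → ¬ (p x ∧ x ∈ V) := by
    rw [eventually_countable_ball (countable_countableBasis A)]
    intro V _
    by_cases hV : ∃ᶠ x in residual A, p x ∧ x ∈ V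
    · exact Eventually.of_forall fun x h => absurd hV h
    · filter_upwards [not_frequently.1 hV] with x hx _
      exact hx
  obtain ⟨x₀, hp, hx⟩ := (h.and_eventually h1).exists
  refine ⟨x₀, hp, fun V hV hxV => ?_⟩
  obtain ⟨W, hW, hxW, hWV⟩ := (isBasis_countableBasis A).exists_subset_of_mem_open hxV hV
  have : ∃ᶠ x in residual A, p x ∧ x ∈ W := by
    by_contra hn
    exact hx W hW hn ⟨hp, hxW⟩
  exact this.mono fun x hx => ⟨hx.1, hWV hx.2⟩

theorem localize {p : A → Prop} {S : Set A} (hS : BaireMeasurableSet S)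
    (h : ∃ᶠ x in residual A, p x ∧ x ∈ S) :
    ∃ O, IsOpen O ∧ (∀ᶠ x in residual A, x ∈ O → x ∈ S) ∧ ∃ᶠ x in residual A, p x ∧ x ∈ O := by
  obtain ⟨O, hO, hsO⟩ := hS.residualEq_isOpen
  have h1 := eventuallyEq_set.1 hsO
  exact ⟨O, hO, h1.mono fun x hx => hx.2,
    (h.and_eventually h1).mono fun x hx => ⟨hx.1.1, hx.2.1 hx.1.2⟩⟩

theorem frequently_exists_countable {ι : Sort*} [Countable ι] {p : ι → A → Prop}
    (h : ∃ᶠ x in residual A, ∃ i, p i x) : ∃ i, ∃ᶠ x in residual A, p i x := by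
  by_contra hn
  push Not at hn
  have : ∀ᶠ x in residual A, ∀ i, ¬ p i x := eventually_countable_forall.2 hn
  obtain ⟨x, ⟨i, hi⟩, hx⟩ := (h.and_eventually this).exists
  exact hx i hi

theorem frequently_open [BaireSpace A] {V : Set A} (hV : IsOpen V) (hn : V.Nonempty) :
    ∃ᶠ x in residual A, x ∈ V := by
  intro h
  obtain ⟨x, hx, hx'⟩ := (dense_of_mem_residual h).inter_open_nonempty V hV hn
  exact hx' hx

theorem exists_cylinder {α : Type*} [TopologicalSpace α] [DiscreteTopology α] {O : Set (ℕ → α)}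
    (hO : IsOpen O) {x : ℕ → α} (hx : x ∈ O) : ∃ L, PiNat.cylinder x L ⊆ O := by
  obtain ⟨v, ⟨y, n, rfl⟩, hv, hvO⟩ :=
    (PiNat.isTopologicalBasis_cylinders fun _ : ℕ => α).exists_subset_of_mem_open hx hO
  exact ⟨n, by rwa [PiNat.mem_cylinder_iff_eq.1 hv]⟩

/-- Localization to a cylinder. -/
theorem localize_cyl {α : Type*} [TopologicalSpace α] [DiscreteTopology α]
    {S V : Set (ℕ → α)} (hS : BaireMeasurableSet S) (hV : IsOpen V)
    (h : ∃ᶠ x in residual _, x ∈ V ∧ x ∈ S) :
    ∃ y ∈ V, ∃ L, PiNat.cylinder y L ⊆ V ∧ ∀ᶠ x in residual _, x ∈ PiNat.cylinder y L → x ∈ S := by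
  obtain ⟨O, hO, h1, h2⟩ := localize hS h
  obtain ⟨y, hy, hyO⟩ := h2.exists
  obtain ⟨L, hL⟩ := exists_cylinder (hV.inter hO) ⟨hy, hyO⟩
  exact ⟨y, hy, L, fun x hx => (hL hx).1, h1.mono fun x hx hx' => hx (hL hx').2⟩

end Vale.Agent.P327
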