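import Vale.Agent.P327.Basic
import Vale.Agent.P327.KU
import Mathlib.MeasureTheory.Constructions.BorelSpace.Basic

/-! Measurability of reducibility and the finite-extension arguments. -/

namespace Vale.Agent.P327

open Filter Set PiNat

/-! ### Measurability -/

theorem measurable_pre (N : ℕ) (p : List Bool → Prop) : Measurable fun y : X => p (pre y N) := by
  have e : (fun y : X => p (pre y N)) =
      (fun σ : Fin N → Bool => p (List.ofFn σ)) ∘ fun (y : X) (i : Fin N) => y i := by
    funext y
    simp only [Function.comp]
    congr 1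
    apply List.ext_getElem <;> simp [pre]
  rw [e]
  exact Measurable.of_discrete.comp (measurable_pi_lambda _ fun i => measurable_pi_apply _)

variable {Z : Type*} [MeasurableSpace Z]

theorem measurable_bit {f : Z → X} (hf : Measurable f) (i : ℕ) (v : Bool) :
    Measurable fun z => f z i = v :=
  (Measurable.of_discrete (f := fun b : Bool => b = v)).comp ((measurable_pi_apply i).comp hf)

theorem measurable_comp (Φ : Fn) {f g : Z → X} (hf : Measurable f) (hg : Measurable g) :
    Measurable fun z => Comp Φ (f z) (g z) := by
  unfold Comp IsPre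
  simp only [tendsto_atTop, eventually_atTop]
  refine Measurable.and (Measurable.forall fun N => Measurable.forall fun i =>
    Measurable.forall fun v => Measurable.imp ?_ (measurable_bit hg i v)) ?_
  · exact (measurable_pre N fun L => (Φ L)[i]? = some v).comp hf
  · refine Measurable.forall fun b => Measurable.exists fun a => Measurable.forall fun N =>
      Measurable.imp measurable_const ?_
    exact (measurable_pre N fun L => b ≤ (Φ L).length).comp hf

theorem measurable_le {f g : Z → X} (hf : Measurable f) (hg : Measurable g) :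
    Measurable fun z => Le (f z) (g z) := by
  simp only [le_iff_exists_pf]
  exact Measurable.exists fun Φ => measurable_comp Φ.1 hg hf

theorem measurable_decide {p : Z → ℕ → Prop} [∀ z i, Decidable (p z i)]
    (hp : ∀ i, Measurable fun z => p z i) : Measurable fun z i => decide (p z i) := by
  refine measurable_pi_lambda _ fun i => ?_
  refine measurable_to_bool ?_
  have : (fun z => decide (p z i)) ⁻¹' {true} = {z | p z i} := by ext z; simp
  rw [this]
  exact measurableSet_setOfPred.2 (hp i)

theorem measurable_ev (Φ : Fn) : Measurable (ev Φ) := by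
  classical
  unfold ev
  convert measurable_decide (p := fun (y : X) i => ∃ N, (Φ (pre y N))[i]? = some true)
    fun i => Measurable.exists fun N => measurable_pre N fun L => (Φ L)[i]? = some true

theorem continuous_join {T : Type*} [TopologicalSpace T] {f g : T → X} (hf : Continuous f)
    (hg : Continuous g) : Continuous fun z => join (f z) (g z) := by
  refine continuous_pi fun n => ?_
  unfold join
  split_ifs
  · exact (continuous_apply _).comp hf
  · exact (continuous_apply _).comp hg

theorem measurable_join {f g : Z → X} (hf : Measurable f) (hg : Measurable g) :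
    Measurable fun z => join (f z) (g z) :=
  (continuous_join continuous_fst continuous_snd).measurable.comp (hf.prodMk hg)

/-! ### Translations and columns -/

/-- Bitwise sum. -/
def xr (x y : X) : X := fun n => xor (x n) (y n)

/-- Column `i`. -/
def col (x : X) (i : ℕ) : X := fun n => x (Nat.pair i n)

theorem continuous_xr {T : Type*} [TopologicalSpace T] {f g : T → X} (hf : Continuous f)
    (hg : Continuous g) : Continuous fun z => xr (f z) (g z) := by
  refine continuous_pi fun n => ?_
  exact (continuous_of_discreteTopology (f := fun p : Bool × Bool => xor p.1 p.2)).comp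
    (((continuous_apply n).comp hf).prodMk ((continuous_apply n).comp hg))

theorem continuous_col (i : ℕ) : Continuous fun x => col x i :=
  continuous_pi fun _ => continuous_apply _

@[simp] theorem xr_xr (x y : X) : xr (xr x y) y = x := by
  funext n; simp [xr]

theorem tendsto_residual_of_involutive {T : Type*} [TopologicalSpace T] {f : T → T}
    (hc : Continuous f) (hf : Function.Involutive f) : Tendsto f (residual T) (residual T) :=
  tendsto_residual_of_isOpenMap hc (Homeomorph.mk hf.toPerm hc hc).isOpenMap

theorem tendsto_xr (η : X) : Tendsto (fun x => xr x η) (residual X) (residual X) :=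
  tendsto_residual_of_involutive (continuous_xr continuous_id continuous_const) fun x => xr_xr x η

theorem isOpenMap_col (n : ℕ) : IsOpenMap fun x => col x n := by
  refine IsOpenMap.of_sections fun G => ⟨fun y i => if i.unpair.1 = n then y i.unpair.2 else G i,
    Continuous.continuousAt (continuous_pi fun i => ?_), ?_, fun y => ?_⟩
  · split_ifs
    · exact continuous_apply _
    · exact continuous_const
  · funext i
    dsimp only
    split_ifs with h
    · simp only [col]; rw [← h, Nat.pair_unpair]
    · rfl
  · funext m; simp [col]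

theorem tendsto_col (n : ℕ) : Tendsto (fun x => col x n) (residual X) (residual X) :=
  tendsto_residual_of_isOpenMap (continuous_col n) (isOpenMap_col n)

theorem Le.xr {x y z : X} (h1 : Le x z) (h2 : Le y z) : Le (xr x y) z := h1.bool₂ h2 xor

theorem Le.col {x z : X} (h : Le x z) (i : ℕ) : Le (col x i) z :=
  h.reindex (Primrec₂.natPair.comp (Primrec.const i) Primrec.id)

/-! ### A real computed from nonmeagerly many generics -/

/-- Join of strings. -/
def joinL (L₁ L₂ : List Bool) : List Bool :=
  (List.range (2 * min L₁.length L₂.length)).map fun n =>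
    if n % 2 = 0 then L₁.getD (n / 2) false else L₂.getD (n / 2) false

theorem joinL_primrec : Primrec₂ joinL := by
  unfold joinL
  refine Primrec.list_map (Primrec.list_range.comp (Primrec.nat_double.comp (Primrec.nat_min.comp
    (Primrec.list_length.comp Primrec.fst) (Primrec.list_length.comp Primrec.snd)))) ?_
  exact (Primrec.ite (primrec_even.comp Primrec.snd)
    ((Primrec.list_getD false).comp (Primrec.fst.comp Primrec.fst) (primrec_half.comp Primrec.snd))
    ((Primrec.list_getD false).comp (Primrec.snd.comp Primrec.fst)
      (primrec_half.comp Primrec.snd))).to₂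

theorem joinL_eq {L₁ L₂ : List Bool} {x y : X} (h1 : IsPre L₁ x) (h2 : IsPre L₂ y) :
    joinL L₁ L₂ = pre (join x y) (2 * min L₁.length L₂.length) := by
  unfold joinL pre
  refine List.map_congr_left fun n hn => ?_
  rw [List.mem_range] at hn
  unfold join
  rw [List.getD_eq_getElem?_getD, List.getD_eq_getElem?_getD, h1.getElem? (by omega),
    h2.getElem? (by omega)]
  rfl

theorem isPre_of_mem_cylinder {T : List Bool} {g : X}
    (h : g ∈ cylinder (fun i => T.getD i false) T.length) : IsPre T g := by
  intro i v hv
  have hi : i < T.length := (List.getElem?_eq_some_iff.1 hv).1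
  rw [h i hi]
  dsimp only
  rw [List.getD_eq_getElem?_getD, hv]
  rfl

theorem le_of_frequently {z s : X} (h : ∃ᶠ g in residual X, Le z (join g s)) : Le z s := by
  simp only [le_iff_exists_pf] at h
  obtain ⟨⟨Φ, hΦ⟩, h⟩ := frequently_exists_countable h
  dsimp only at h
  set S : Set X := {g | Comp Φ (join g s) z} with hS
  obtain ⟨y, -, L, -, hL⟩ := localize_cyl (S := closure S) (V := univ)
    isClosed_closure.measurableSet.baireMeasurableSet isOpen_univ
    (h.mono fun g hg => ⟨trivial, subset_closure hg⟩)
  have dens : ∀ τ : List Bool, ∃ g ∈ S, IsPre (pre y L ++ τ) g := by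
    intro τ
    have ho := isOpen_cylinder (fun _ : ℕ => Bool) (fun i => (pre y L ++ τ).getD i false)
      (pre y L ++ τ).length
    obtain ⟨x, hx, hx'⟩ := ((frequently_open ho ⟨_, self_mem_cylinder _ _⟩).and_eventually hL).exists
    have hxy : x ∈ cylinder y L := by
      intro i hi
      have := isPre_of_mem_cylinder hx i (y i) (by
        rw [List.getElem?_append_left (by simpa using hi), pre_getElem?, if_pos hi])
      exact this
    obtain ⟨g, hg, hgS⟩ := mem_closure_iff.1 (hx' hxy) _ ho hx
    exact ⟨g, hgS, isPre_of_mem_cylinder hg⟩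
  let dec : ℕ → List Bool := fun n => (Encodable.decode (α := List Bool) n).getD []
  have hdec : Primrec dec := Primrec.option_getD.comp Primrec.decode (Primrec.const [])
  have hde : ∀ L, dec (Encodable.encode L) = L := fun L => by simp [dec]
  rw [le_iff_ured]
  refine URed.ofM (M := fun T n => ((List.range T.length).filterMap fun k =>
    (Φ (joinL (pre y L ++ dec k) T))[n]?).head?) ?_ ?_ ?_
  · refine Primrec.list_head?.comp (Primrec.listFilterMap (Primrec.list_range.comp
      (Primrec.list_length.comp Primrec.fst)) ?_)
    exact (Primrec.list_getElem?.comp (hΦ.comp (joinL_primrec.comp (Primrec.list_append.comp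
      (Primrec.const _) (hdec.comp Primrec.snd)) (Primrec.fst.comp Primrec.fst)))
      (Primrec.snd.comp Primrec.fst)).to₂
  · intro _ N n v hv
    have := List.mem_of_mem_head? hv
    rw [List.mem_filterMap] at this
    obtain ⟨k, -, hk⟩ := this
    obtain ⟨g, hg, hp⟩ := dens (dec k)
    rw [joinL_eq hp (isPre_pre s N)] at hk
    exact hg.1 _ _ _ hk
  · intro _ n
    obtain ⟨g, hg, hp⟩ := dens []
    rw [List.append_nil] at hp
    obtain ⟨N₀, hN₀⟩ := eventually_atTop.1 (hg.ev n)
    let τ : List Bool := (List.range N₀).map fun i => g (L + i)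
    have hτ : IsPre (pre y L ++ τ) g := by
      intro i v hv
      by_cases hi : i < L
      · rw [List.getElem?_append_left (by simpa using hi)] at hv
        exact hp i v hv
      · rw [List.getElem?_append_right (by simpa using hi)] at hv
        simp only [pre_length, τ, List.getElem?_map, Option.map_eq_some_iff] at hv
        obtain ⟨a, ha, rfl⟩ := hv
        rw [List.getElem?_eq_some_iff] at ha
        obtain ⟨_, rfl⟩ := ha
        simp only [List.getElem_range]
        congr 1
        omega
    filter_upwards [eventually_gt_atTop (Encodable.encode τ), eventually_ge_atTop N₀] with N h1 h2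
    rw [List.isSome_head?]
    refine List.ne_nil_of_mem (a := z n) ?_
    rw [List.mem_filterMap]
    refine ⟨Encodable.encode τ, by simpa using h1, ?_⟩
    rw [hde, joinL_eq hτ (isPre_pre s N)]
    apply hN₀
    simp only [List.length_append, pre_length, τ, List.length_map, List.length_range]
    omega

/-! ### Meets through a generic sequence -/

theorem eventually_glb (H : X) : ∀ᶠ g in residual X, ∀ i z, Le z H →
    Le z (join (xr g H) (col g i)) → Le z (col H i) := by
  rw [eventually_countable_forall]
  intro i
  have := (eventually_countable_ball (l := residual X) (countable_le H)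
    (p := fun g z _ => Le z (join (xr g H) (col g i)) → Le z (col H i))).2 ?_
  · exact this
  intro z _
  by_cases hz : Le z (col H i)
  · exact Eventually.of_forall fun _ _ => hz
  have h1 : ∀ᶠ g in residual X, ¬ Le z (join g (col H i)) :=
    not_frequently.1 fun h => hz (le_of_frequently h)
  let H' : X := fun m => if m.unpair.1 = i then false else H m
  filter_upwards [(tendsto_xr H').eventually h1] with g hg h
  refine absurd (h.trans (Le.join ?_ ?_)) hg
  · have a1 := (le_join_right (xr g H') (col H i)).map₁
      (φ := fun m b => if m.unpair.1 = i then b else false)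
      (Primrec.snd.comp Primrec.unpair)
      (Primrec.ite (Primrec.eq.comp (Primrec.fst.comp (Primrec.unpair.comp Primrec.fst))
        (Primrec.const i)) Primrec.snd (Primrec.const false)).to₂
    refine ((le_join_left (xr g H') (col H i)).xr a1).of_eq fun m => ?_
    simp only [xr, H', col]
    split_ifs with hm
    · rw [← hm, Nat.pair_unpair]; simp
    · simp
  · refine ((le_join_left (xr g H') (col H i)).col i).of_eq fun m => ?_
    simp [col, xr, H']

/-! ### Coding an arbitrary real by an independent sequence -/

theorem residual_of_cyl {α : Type*} [TopologicalSpace α] [DiscreteTopology α] {D : Set (ℕ → α)}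
    (h : ∀ c ℓ, ∃ c' ∈ cylinder c ℓ, ∃ L, cylinder c' L ⊆ D) : D ∈ residual (ℕ → α) := by
  refine mem_of_superset (residual_of_dense_open isOpen_interior ?_) interior_subset
  rw [dense_iff_inter_open]
  rintro U hU ⟨c, hc⟩
  obtain ⟨ℓ, hℓ⟩ := exists_cylinder hU hc
  obtain ⟨c', hc', L, hL⟩ := h c ℓ
  exact ⟨c', hℓ hc', interior_maximal hL (isOpen_cylinder _ _ _) (self_mem_cylinder _ _)⟩

/-- Columns selected according to `y`. -/
def aOf (c : ℕ → Bool × Bool) (y : X) : X := fun m => cond (y m.unpair.1) (c m).2 (c m).1

/-- The independent sequence. -/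
def gOf (c : ℕ → Bool × Bool) (j : ℕ) : X := fun n => (c (Nat.pair j n)).2

theorem coding_step (Φ : Fn) {j s : ℕ} (hj : j < s) (y : X) (c : ℕ → Bool × Bool) (L : ℕ)
    (hc : ∀ m, s ≤ m.unpair.1 → (c m).1 = (c m).2) :
    ∃ c' ∈ cylinder c L, (∀ m, s ≤ m.unpair.1 → (c' m).1 = (c' m).2) ∧ ∃ L', L ≤ L' ∧
      ∀ c'' ∈ cylinder c' L', ∀ y', (∀ i < s, y' i = y i) → y' j = false →
        ¬ Comp Φ (aOf c'' y') (gOf c'' j) := by
  have agree : ∀ c₁ : ℕ → Bool × Bool, (∀ m, s ≤ m.unpair.1 → (c₁ m).1 = (c₁ m).2) →
      ∀ L' c'', c'' ∈ cylinder c₁ L' → ∀ y', (∀ i < s, y' i = y i) → ∀ m < L',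
        aOf c'' y' m = aOf c₁ y m := by
    intro c₁ h₁ L' c'' hc'' y' hy' m hm
    unfold aOf
    rw [hc'' m hm]
    by_cases hs : m.unpair.1 < s
    · rw [hy' _ hs]
    · rw [h₁ m (not_lt.1 hs)]; simp
  by_cases hyj : y j = true
  · exact ⟨c, self_mem_cylinder _ _, hc, L, le_rfl, fun _ _ y' hy' hy'j => by
      rw [hy' j hj, hyj] at hy'j; exact absurd hy'j (by simp)⟩
  by_cases h : ∃ a' ∈ cylinder (aOf c y) L, ∃ N, L < (Φ (pre a' N)).length
  · obtain ⟨a', ha', N, hN⟩ := h
    let c' : ℕ → Bool × Bool := fun m =>
      if s ≤ m.unpair.1 then (a' m, a' m)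
      else if y m.unpair.1 = true then ((c m).1, a' m)
      else if m = Nat.pair j L then (a' m, !(Φ (pre a' N))[L])
      else (a' m, (c m).2)
    have hsym : ∀ m, s ≤ m.unpair.1 → (c' m).1 = (c' m).2 := by
      intro m hm; simp [c', hm]
    have ha : aOf c' y = a' := by
      funext m
      simp only [aOf, c']
      split_ifs with h1 h2 h3
      · simp
      · simp [h2]
      · simp at h2; simp [h2]
      · simp at h2; simp [h2]
    refine ⟨c', fun m hm => ?_, hsym, max (max L N) (Nat.pair j L + 1), by omega, ?_⟩
    · have h0 := ha' m hm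
      simp only [aOf] at h0
      simp only [c']
      split_ifs with h1 h2 h3
      · have := hc m h1
        rw [this] at h0
        simp only [Bool.cond_self] at h0
        exact Prod.ext (h0.trans this.symm) h0
      · simp only [h2, cond_true] at h0
        exact Prod.ext rfl h0
      · have := Nat.right_le_pair j L
        omega
      · simp only [Bool.not_eq_true] at h2
        simp only [h2, cond_false] at h0
        exact Prod.ext h0 rfl
    · intro c'' hc'' y' hy' _ hcomp
      have h1 : pre (aOf c'' y') N = pre a' N := pre_congr fun m hm => by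
        rw [agree c' hsym _ c'' hc'' y' hy' m (by omega), ha]
      have h2 := hcomp.1 N L (Φ (pre a' N))[L] (by rw [h1]; simp [hN])
      have h3 : gOf c'' j L = !(Φ (pre a' N))[L] := by
        unfold gOf
        rw [hc'' _ (by omega)]
        simp [c', hyj, not_le.2 hj]
      rw [h3] at h2
      simp at h2
  · refine ⟨c, self_mem_cylinder _ _, hc, L, le_rfl, fun c'' hc'' y' hy' _ hcomp => h ?_⟩
    obtain ⟨N, hN⟩ := (hcomp.2.eventually (eventually_gt_atTop L)).exists
    exact ⟨aOf c'' y', fun m hm => agree c hc L c'' hc'' y' hy' m hm, N, hN⟩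

theorem coding_residual (Φ : Fn) (j : ℕ) : ∀ᶠ c in residual (ℕ → Bool × Bool),
    ∀ y : X, y j = false → ¬ Comp Φ (aOf c y) (gOf c j) := by
  refine residual_of_cyl fun c ℓ => ?_
  let s := max ℓ (j + 1)
  let ext : (Fin s → Bool) → X := fun σ i => if h : i < s then σ ⟨i, h⟩ else false
  have key : ∀ P : Finset (Fin s → Bool), ∃ c' ∈ cylinder c ℓ,
      (∀ m, s ≤ m.unpair.1 → (c' m).1 = (c' m).2) ∧ ∃ L', ℓ ≤ L' ∧
      ∀ σ ∈ P, ∀ c'' ∈ cylinder c' L', ∀ y', (∀ i < s, y' i = ext σ i) → y' j = false →
        ¬ Comp Φ (aOf c'' y') (gOf c'' j) := by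
    intro P
    induction P using Finset.induction_on with
    | empty =>
      refine ⟨fun m => if s ≤ m.unpair.1 then (false, false) else c m, fun m hm => ?_,
        fun m hm => by simp [hm], ℓ, le_rfl, by simp⟩
      have := Nat.unpair_left_le m
      have hs : ℓ ≤ s := le_max_left _ _
      dsimp only
      rw [if_neg (by omega)]
    | insert σ P _ ih =>
      obtain ⟨c₁, hc₁, hs₁, L₁, hL₁, h₁⟩ := ih
      obtain ⟨c₂, hc₂, hs₂, L₂, hL₂, h₂⟩ := coding_step Φ (j := j) (s := s) (by omega) (ext σ) c₁
        L₁ hs₁
      refine ⟨c₂, fun m hm => (hc₂ m (by omega)).trans (hc₁ m hm), hs₂, L₂, by omega, ?_⟩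
      intro τ hτ c'' hc''
      rcases Finset.mem_insert.1 hτ with rfl | hτ
      · exact h₂ c'' hc''
      · exact h₁ τ hτ c'' fun m hm => (hc'' m (by omega)).trans (hc₂ m hm)
  obtain ⟨c', hc', -, L', -, h⟩ := key Finset.univ
  refine ⟨c', hc', L', fun c'' hc'' y hy => h (fun i => y i) (Finset.mem_univ _) c'' hc'' y ?_ hy⟩
  intro i hi
  simp [ext, hi]

theorem exists_coding : ∃ (g : ℕ → X) (c₀ : X), ∀ y : X, ∃ a, Le a (join y c₀) ∧
    ∀ j, Le (g j) a ↔ y j = true := by
  have h : ∀ᶠ c in residual (ℕ → Bool × Bool), ∀ (Φ : PF) (j : ℕ),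
      ∀ y : X, y j = false → ¬ Comp Φ.1 (aOf c y) (gOf c j) :=
    eventually_countable_forall.2 fun Φ => eventually_countable_forall.2 fun j =>
      coding_residual Φ.1 j
  obtain ⟨c, hc⟩ := (dense_of_mem_residual h).nonempty
  refine ⟨gOf c, join (fun m => (c m).1) (fun m => (c m).2), fun y => ⟨aOf c y, ?_, fun j => ?_⟩⟩
  · have h0 := (le_join_left y (join (fun m => (c m).1) (fun m => (c m).2))).reindex
      (Primrec.fst.comp Primrec.unpair)
    have h1 := (le_join_left (fun m => (c m).1) (fun m => (c m).2)).trans (le_join_right y _)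
    have h2 := (le_join_right (fun m => (c m).1) (fun m => (c m).2)).trans (le_join_right y _)
    refine ((h0.bool₂ h2 and).bool₂ (h0.bool₂ h1 fun b d => !b && d) or).of_eq fun m => ?_
    simp only [aOf]
    cases y m.unpair.1 <;> simp
  · constructor
    · intro hle
      by_contra hy
      obtain ⟨Φ, hΦ⟩ := le_iff_exists_pf.1 hle
      exact hc Φ j y (by simpa using hy) hΦ
    · intro hy
      refine ((Le.refl (aOf c y)).col j).of_eq fun n => ?_
      simp [col, aOf, gOf, hy]

end Vale.Agent.P327
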