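import Vale.Agent.P327.Vaught

/-! Recovering a real from four values of the automorphism. -/

namespace Vale.Agent.P327

open Filter Set PiNat

/-- Drop the first bit. -/
def sh (x : X) : X := fun n => x (n + 1)

/-- The real with a single nonzero bit. -/
def e1 (d : ℕ) : X := fun i => decide (i = d)

theorem e1_primrec (d : ℕ) : Primrec (e1 d) :=
  (Primrec.eq.comp Primrec.id (Primrec.const d)).decide

/-- The four uniform reductions at the pair `(y, z)`. -/
def Four (Fy Fz M₁ M₂ : X → X) (Φ₁ Φ₂ Φ₃ Φ₄ : Fn) (y z : X) : Prop :=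
  Comp Φ₁ (join (Fy y) (Fz z)) (M₁ (xr y (sh z))) ∧
  Comp Φ₂ (join (M₁ (xr y (sh z))) (Fz z)) (Fy y) ∧
  Comp Φ₃ (join (Fy y) (Fz z)) (M₂ (xr z y)) ∧
  Comp Φ₄ (join (M₂ (xr z y)) (Fy y)) (Fz z)

theorem algo {Fy Fz M₁ M₂ : X → X} {Φ₁ Φ₂ Φ₃ Φ₄ : Fn} (p₁ : Primrec Φ₁) (p₂ : Primrec Φ₂)
    (p₃ : Primrec Φ₃) (p₄ : Primrec Φ₄) {y z t O : X} {ℓ d D k : ℕ} (hd : ℓ ≤ d) (hD : 0 < D)
    (h4 : ∀ η η', Le η t → Le η' t → (∀ i < ℓ, η i = false) → (∀ i < ℓ, η' i = false) →
      Four Fy Fz M₁ M₂ Φ₁ Φ₂ Φ₃ Φ₄ (xr y η) (xr z η') ∧ Le (Fy (xr y η)) O ∧ Le (Fz (xr z η')) O)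
    (hb0 : ∀ η, Le η t → (∀ i < d + 1, η i = false) → Fy (xr y η) k = false)
    (hb1 : ∀ η, Le η t → (∀ i < d + D, η i = e1 d i) → Fy (xr y η) k = true) : Le t O := by
  let τ : X := fun i => decide (i % D = 0) && t (i / D)
  let ζ : ℕ → X := fun j i => decide (d ≤ i) && τ (i - d + j)
  let o : X := fun _ => false
  let u : ℕ → X := fun j => cond (τ j) (e1 d) o
  let ξ : ℕ → X := fun j => xr (ζ j) (u j)
  have ho : Le o t := Le.of_primrec (Primrec.const false) t
  have hτ : Le τ t := (Le.refl t).map₁ (φ := fun i b => decide (i % D = 0) && b)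
    (Primrec.nat_div.comp Primrec.id (Primrec.const D))
    (Primrec.and.comp (Primrec.eq.comp (Primrec.nat_mod.comp Primrec.fst (Primrec.const D))
      (Primrec.const 0)).decide Primrec.snd).to₂
  have hζ : ∀ j, Le (ζ j) t := fun j => hτ.map₁ (φ := fun i b => decide (d ≤ i) && b)
    (Primrec.nat_add.comp (Primrec.nat_sub.comp Primrec.id (Primrec.const d)) (Primrec.const j))
    (Primrec.and.comp (Primrec.nat_le.comp (Primrec.const d) Primrec.fst).decide Primrec.snd).to₂
  have he : Le (e1 d) t := Le.of_primrec (e1_primrec d) t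
  have hu : ∀ j, Le (u j) t := fun j => by
    simp only [u]; cases τ j
    · exact ho
    · exact he
  have hξ : ∀ j, Le (ξ j) t := fun j => (hζ j).xr (hu j)
  have so : ∀ i < ℓ, o i = false := fun _ _ => rfl
  have sζ : ∀ j, ∀ i < ℓ, ζ j i = false := fun j i hi => by
    have : ¬ d ≤ i := by omega
    simp [ζ, this]
  have se : ∀ i < ℓ, e1 d i = false := fun i hi => by
    have : i ≠ d := by omega
    simp [e1, this]
  have su : ∀ j, ∀ i < ℓ, u j i = false := fun j i hi => by
    simp only [u]; cases τ j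
    · rfl
    · exact se i hi
  have sξ : ∀ j, ∀ i < ℓ, ξ j i = false := fun j i hi => by simp [ξ, xr, sζ j i hi, su j i hi]
  have hbit : ∀ j, Fy (xr y (ζ j)) k = τ j := by
    intro j
    cases hj : τ j
    · refine hb0 _ (hζ j) fun i hi => ?_
      by_cases h : d ≤ i
      · have : i = d := by omega
        simp [ζ, this, hj]
      · simp [ζ, h]
    · refine hb1 _ (hζ j) fun i hi => ?_
      rcases lt_trichotomy i d with h | h | h
      · have h1 : ¬ d ≤ i := by omega
        have h2 : i ≠ d := by omega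
        simp [ζ, e1, h1, h2]
      · simp [ζ, e1, h, hj]
      · have h1 : j % D = 0 := by
          simp only [τ, Bool.and_eq_true, decide_eq_true_eq] at hj
          exact hj.1
        have h2 : i ≠ d := by omega
        have h3 : (i - d + j) % D ≠ 0 := by
          rw [Nat.add_mod, h1, add_zero, Nat.mod_mod, Nat.mod_eq_of_lt (by omega)]
          omega
        simp [ζ, e1, τ, h2, h3]
  have hsh : ∀ j, sh (ξ j) = ζ (j + 1) := by
    intro j
    funext i
    simp only [sh, ξ, xr, ζ, u]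
    rcases lt_trichotomy (i + 1) d with h | h | h
    · have h1 : ¬ d ≤ i + 1 := by omega
      have h2 : ¬ d ≤ i := by omega
      have h3 : i + 1 ≠ d := by omega
      cases τ j <;> simp [h1, h2, h3, e1, o]
    · have h2 : ¬ d ≤ i := by omega
      subst h
      simp only [le_refl, decide_true, tsub_self, zero_add, Bool.true_and, h2, decide_false,
        Bool.false_and]
      cases τ j <;> simp [e1, o]
    · have h1 : d ≤ i + 1 := by omega
      have h2 : d ≤ i := by omega
      have h3 : i + 1 ≠ d := by omega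
      have h4 : i + 1 - d + j = i - d + (j + 1) := by omega
      rw [h4]
      cases τ j <;> simp [h1, h2, h3, e1, o]
  let s : ℕ → X := fun j => join (Fy (xr y (ζ j)))
    (join (Fy (xr y o)) (join (Fz (xr z o)) (Fz (xr z (e1 d)))))
  have a0 : URed s fun j => Fy (xr y (ζ j)) := URed.left (URed.refl s)
  have ar := URed.right (URed.refl s)
  have a1 : URed s fun _ => Fy (xr y o) := URed.left ar
  have a2 : URed s fun _ => Fz (xr z o) := URed.left (URed.right ar)
  have a3 : URed s fun _ => Fz (xr z (e1 d)) := URed.right (URed.right ar)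
  have a4 : URed s fun j => Fz (xr z (u j)) := (a0.sel a3 a2 k).of_eq fun j => by
    rw [hbit]; simp only [u]; cases τ j <;> rfl
  have a5 : URed s fun j => M₂ (xr (xr z (u j)) (xr y (ζ j))) :=
    (a0.join a4).app p₃ fun j => (h4 _ _ (hζ j) (hu j) (sζ j) (su j)).1.2.2.1
  have a6 : URed s fun j => Fz (xr z (ξ j)) := by
    refine (a5.join a1).app p₄ fun j => ?_
    have := (h4 _ _ ho (hξ j) so (sξ j)).1.2.2.2
    have e : xr (xr z (ξ j)) (xr y o) = xr (xr z (u j)) (xr y (ζ j)) := by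
      funext i; simp only [xr, ξ, o]
      cases z i <;> cases y i <;> cases u j i <;> cases ζ j i <;> rfl
    rwa [e] at this
  have a7 : URed s fun j => M₁ (xr (xr y o) (sh (xr z (ξ j)))) :=
    (a1.join a6).app p₁ fun j => (h4 _ _ ho (hξ j) so (sξ j)).1.1
  have a8 : URed s fun j => Fy (xr y (ζ (j + 1))) := by
    refine (a7.join a2).app p₂ fun j => ?_
    have := (h4 _ _ (hζ (j + 1)) ho (sζ (j + 1)) so).1.2.1
    have e : xr (xr y (ζ (j + 1))) (sh (xr z o)) = xr (xr y o) (sh (xr z (ξ j))) := by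
      rw [← hsh]
      funext i; simp only [xr, sh, o]
      cases z (i + 1) <;> cases y i <;> cases ξ j (i + 1) <;> rfl
    rwa [e] at this
  have a9 : URed s fun j => s (j + 1) := a8.join ar
  have b1 := le_of_iter a9 (a0.reindex (u := fun _ => k) (Primrec.const k))
  simp only [hbit] at b1
  have b2 : Le (s 0) O :=
    Le.join (h4 _ _ (hζ 0) ho (sζ 0) so).2.1 (Le.join (h4 _ _ ho ho so so).2.1
      (Le.join (h4 _ _ ho ho so so).2.2 (h4 _ _ ho he so se).2.2))
  refine ((b1.trans b2).reindex (Primrec.nat_mul.comp (Primrec.const D) Primrec.id)).of_eq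
    fun n => ?_
  simp [τ, Nat.mul_div_cancel_left n hD]

theorem exists_bit {Fy : X → X} (hm : Measurable Fy) (u : X) (ℓ : ℕ)
    (hn : ∀ r, ¬ ∀ᶠ y in residual X, y ∈ cylinder u ℓ → Fy y = r) :
    ∃ k d D y₀, ℓ ≤ d ∧ 0 < D ∧ y₀ ∈ cylinder u ℓ ∧
      (∀ᶠ y in residual X, y ∈ cylinder y₀ (d + 1) → Fy y k = false) ∧
      ∀ᶠ y in residual X, y ∈ cylinder (xr y₀ (e1 d)) (d + D) → Fy y k = true := by
  have h1 : ∃ k, ∀ β, ¬ ∀ᶠ y in residual X, y ∈ cylinder u ℓ → Fy y k = β := by
    by_contra h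
    push Not at h
    choose r hr using h
    refine hn r ?_
    filter_upwards [eventually_countable_forall.2 hr] with y hy hy'
    exact funext fun k => hy k hy'
  obtain ⟨k, hk⟩ := h1
  have loc : ∀ (β : Bool) (v : X) (L : ℕ),
      (¬ ∀ᶠ y in residual X, y ∈ cylinder v L → Fy y k = !β) →
      ∃ y₁ ∈ cylinder v L, ∃ L', L ≤ L' ∧
        ∀ᶠ y in residual X, y ∈ cylinder y₁ L' → Fy y k = β := by
    intro β v L h
    have h' : ∃ᶠ y in residual X, y ∈ cylinder v L ∧ y ∈ {y | Fy y k = β} := by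
      refine (not_eventually.1 h).mono fun y hy => ?_
      push Not at hy
      refine ⟨hy.1, ?_⟩
      have := hy.2
      revert this
      simp only [mem_ofPred_eq]
      cases Fy y k <;> cases β <;> simp
    obtain ⟨y₁, hy₁, L', -, hL'⟩ := localize_cyl
      (measurableSet_setOfPred.2 (measurable_bit hm k β)).baireMeasurableSet
      (isOpen_cylinder _ v L) h'
    exact ⟨y₁, hy₁, max L L', le_max_left _ _,
      hL'.mono fun y hy hy' => hy (cylinder_anti _ (le_max_right _ _) hy')⟩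
  obtain ⟨y₁, hy₁, L, hL, h2⟩ := loc false u ℓ (hk true)
  have h3 : ∃ d, ℓ ≤ d ∧ (¬ ∀ᶠ y in residual X, y ∈ cylinder y₁ d → Fy y k = false) ∧
      ∀ᶠ y in residual X, y ∈ cylinder y₁ (d + 1) → Fy y k = false := by
    by_contra h
    have : ∀ d, ℓ ≤ d → ¬ ∀ᶠ y in residual X, y ∈ cylinder y₁ d → Fy y k = false := by
      intro d hd
      induction d, hd using Nat.le_induction with
      | base => rw [mem_cylinder_iff_eq.1 hy₁]; exact hk false
      | succ d hd ih => exact fun h' => h ⟨d, hd, ih, h'⟩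
    exact this L hL h2
  obtain ⟨d, hd, h4, h5⟩ := h3
  have h6 : ¬ ∀ᶠ y in residual X, y ∈ cylinder (xr y₁ (e1 d)) (d + 1) → Fy y k = !true := by
    intro h
    refine h4 ?_
    filter_upwards [h, h5] with y ha hb hy
    by_cases hyd : y d = y₁ d
    · refine hb fun i hi => ?_
      rcases Nat.lt_succ_iff_lt_or_eq.1 hi with hi | rfl
      · exact hy i hi
      · exact hyd
    · refine ha fun i hi => ?_
      rcases Nat.lt_succ_iff_lt_or_eq.1 hi with hi | rfl
      · simp [xr, e1, hy i hi, hi.ne]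
      · revert hyd
        simp only [xr, e1]
        cases y i <;> cases y₁ i <;> simp
  obtain ⟨y₂, hy₂, L₂, hL₂, h7⟩ := loc true _ _ h6
  have hy₀ : xr y₂ (e1 d) ∈ cylinder y₁ (d + 1) := fun i hi => by
    simp [xr, hy₂ i hi]
  refine ⟨k, d, L₂ - d, xr y₂ (e1 d), hd, by omega, fun i hi => ?_, ?_, ?_⟩
  · rw [hy₀ i (by omega), hy₁ i hi]
  · rwa [mem_cylinder_iff_eq.1 hy₀]
  · rw [xr_xr, show d + (L₂ - d) = L₂ by omega]
    exact h7

theorem eventually_not_le (b : X) : ∀ᶠ y in residual X, ¬ Le y b := by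
  have : ∀ᶠ y in residual X, ∀ x ∈ {x | Le x b}, y ≠ x := by
    rw [eventually_countable_ball (countable_le b)]
    intro x _
    refine residual_of_cyl fun c ℓ => ⟨Function.update c ℓ (!x ℓ), update_mem_cylinder _ _ _,
      ℓ + 1, fun y hy h => ?_⟩
    have := hy ℓ (by omega)
    rw [h] at this
    simp at this
  filter_upwards [this] with y hy h
  exact hy y h rfl

theorem col_place_self (G η : X) (n : ℕ) : col (xr G (place n η)) n = xr (col G n) η := by
  funext i; simp [col, xr, place]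

theorem col_place_ne (G η : X) {n m : ℕ} (h : m ≠ n) : col (xr G (place n η)) m = col G m := by
  funext i; simp [col, xr, place, h]

theorem place_mem_cylinder {G G₀ η : X} {ℓ : ℕ} (n : ℕ) (hG : G ∈ cylinder G₀ ℓ)
    (hη : ∀ i < ℓ, η i = false) : xr G (place n η) ∈ cylinder G₀ ℓ := by
  intro i hi
  have := Nat.unpair_right_le i
  simp [xr, place, hG i hi, hη i.unpair.2 (by omega)]

theorem Le.sh {x z : X} (h : Le x z) : Le (sh x) z := h.reindex Primrec.succ

theorem Aut.le_self {f : X → X} (hf : Aut f) (b : X) : Le b (f b) := by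
  set t := f b with ht
  obtain ⟨n, E, hE, hinv, hB⟩ := hf.exists_invariant t
  obtain ⟨F, hFm, hF⟩ := hf.exists_family
  choose B₀ hB₀ hB₀' using fun Φ : PF => hB n le_rfl (fun G => F Φ (col G n))
    ((hFm Φ).comp (continuous_col n).measurable)
  choose B₁ hB₁ hB₁' using fun Φ : PF => hB (n + 1) (by omega) (fun G => F Φ (col G (n + 1)))
    ((hFm Φ).comp (continuous_col (n + 1)).measurable)
  let S : (PF × PF × PF × PF) × (PF × PF × PF × PF) → Set X := fun q =>
    B₀ q.1.1 ∩ B₁ q.1.2.1 ∩ {G | Four (F q.1.1) (F q.1.2.1) (F q.1.2.2.1) (F q.1.2.2.2)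
      q.2.1.1 q.2.2.1.1 q.2.2.2.1.1 q.2.2.2.2.1 (col G n) (col G (n + 1))}
  have hS : ∀ q, BaireMeasurableSet (S q) := by
    intro q
    refine ((hB₀ _).inter (hB₁ _)).inter (measurableSet_setOfPred.2 ?_).baireMeasurableSet
    have m0 := (hFm q.1.1).comp (continuous_col n).measurable
    have m1 := (hFm q.1.2.1).comp (continuous_col (n + 1)).measurable
    have m2 : Measurable fun G : X => F q.1.2.2.1 (xr (col G n) (sh (col G (n + 1)))) :=
      (hFm q.1.2.2.1).comp (continuous_xr (continuous_col n)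
        (continuous_pi fun i => continuous_apply _)).measurable
    have m3 := (hFm q.1.2.2.2).comp (continuous_xr (continuous_col (n + 1))
      (continuous_col n)).measurable
    exact (measurable_comp _ (measurable_join m0 m1) m2).and
      ((measurable_comp _ (measurable_join m2 m1) m0).and
      ((measurable_comp _ (measurable_join m0 m1) m3).and
      (measurable_comp _ (measurable_join m3 m0) m1)))
  have hcover : ∀ G, E G → ∃ q, G ∈ S q := by
    intro G hG
    obtain ⟨e₀, h₀⟩ := hF (col G n)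
    obtain ⟨e₁, h₁⟩ := hF (col G (n + 1))
    obtain ⟨e₂, h₂⟩ := hF (xr (col G n) (sh (col G (n + 1))))
    obtain ⟨e₃, h₃⟩ := hF (xr (col G (n + 1)) (col G n))
    have c0 := (hB₀' e₀ G hG).1 (by rw [h₀]; exact Eqv.refl _)
    have c1 := (hB₁' e₁ G hG).1 (by rw [h₁]; exact Eqv.refl _)
    generalize hy : col G n = y at *
    generalize hz : col G (n + 1) = z at *
    obtain ⟨Φ₁, k₁⟩ := le_iff_exists_pf.1 (hf.le_join (x := xr y (sh z))
      ((le_join_left y z).xr (le_join_right y z).sh))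
    obtain ⟨Φ₂, k₂⟩ := le_iff_exists_pf.1 (hf.le_join (x := y) (u := xr y (sh z)) (v := z)
      (((le_join_left _ z).xr (le_join_right _ z).sh).of_eq fun i => by simp [xr]))
    obtain ⟨Φ₃, k₃⟩ := le_iff_exists_pf.1 (hf.le_join (x := xr z y)
      ((le_join_right y z).xr (le_join_left y z)))
    obtain ⟨Φ₄, k₄⟩ := le_iff_exists_pf.1 (hf.le_join (x := z) (u := xr z y) (v := y)
      (((le_join_left _ y).xr (le_join_right _ y)).of_eq fun i => by simp [xr]))
    refine ⟨((e₀, e₁, e₂, e₃), (Φ₁, Φ₂, Φ₃, Φ₄)), ⟨c0, c1⟩, ?_⟩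
    simp only [mem_ofPred_eq, Four, hy, hz, h₀, h₁, h₂, h₃]
    exact ⟨k₁, k₂, k₃, k₄⟩
  obtain ⟨q, hq⟩ := frequently_exists_countable (p := fun q G => E G ∧ G ∈ S q)
    (hE.mono fun G hG => (hcover G hG).imp fun q hq => ⟨hG, hq⟩)
  obtain ⟨O, hO, hOS, hEO⟩ := localize (hS q) hq
  obtain ⟨G₀, ⟨-, hG₀⟩, hpt⟩ := exists_point hEO
  obtain ⟨ℓ, hℓ⟩ := exists_cylinder hO hG₀
  obtain ⟨⟨e₀, e₁, e₂, e₃⟩, ⟨Φ₁, Φ₂, Φ₃, Φ₄⟩⟩ := q
  have hn : ∀ r, ¬ ∀ᶠ y in residual X, y ∈ cylinder (col G₀ n) ℓ → F e₀ y = r := by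
    intro r hr
    obtain ⟨c, hc⟩ := hf.surj r
    have h1 := hpt _ ((isOpen_cylinder _ (col G₀ n) ℓ).preimage (continuous_col n))
      (self_mem_cylinder _ _)
    obtain ⟨G, ⟨⟨⟨⟨hG, hGO⟩, hGc⟩, h2⟩, h3⟩, h4⟩ := (((h1.and_eventually hOS).and_eventually
      ((tendsto_col n).eventually hr)).and_eventually
      ((tendsto_col n).eventually (eventually_not_le c))).exists
    have h5 := (hB₀' e₀ G hG).2 (h2 hGO).1.1
    rw [h3 hGc] at h5
    exact h4 ((hf.le_iff _ _).1 (h5.1.trans hc.2))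
  obtain ⟨k, d, D, y₀, hd, hD, hy₀, hb0, hb1⟩ := exists_bit (hFm e₀) _ _ hn
  let η₁ : X := fun i => (pre (xr (col G₀ n) y₀) (d + D)).getD i false
  have hη₁ : Le η₁ t := Le.of_primrec ((Primrec.list_getD false).comp (Primrec.const _)
    Primrec.id) t
  have hη₁' : ∀ i < d + D, η₁ i = xr (col G₀ n) y₀ i := fun i hi => by
    simp only [η₁]; rw [List.getD_eq_getElem?_getD, pre_getElem?, if_pos hi]; rfl
  let V : Set X := cylinder G₀ ℓ ∩ (fun G => col G n) ⁻¹' cylinder y₀ (d + D)
  have hV : IsOpen V := (isOpen_cylinder _ _ _).inter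
    ((isOpen_cylinder _ _ _).preimage (continuous_col n))
  have hfreq : ∃ᶠ G in residual X, E G ∧ G ∈ V := by
    refine (tendsto_xr (place n η₁)).frequently ?_
    have h1 := hpt _ (hV.preimage (continuous_xr continuous_id
      (continuous_const (y := place n η₁)))) ⟨?_, ?_⟩
    · exact h1.mono fun G hG => ⟨hinv G η₁ n le_rfl hη₁ hG.1.1, hG.2⟩
    · refine place_mem_cylinder n (self_mem_cylinder _ _) fun i hi => ?_
      rw [hη₁' i (by omega)]
      simp [xr, hy₀ i hi]
    · show col (xr G₀ (place n η₁)) n ∈ cylinder y₀ (d + D)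
      rw [col_place_self]
      intro i hi
      simp only [xr]
      rw [hη₁' i hi]
      simp [xr]
  have hC : ∀ᶠ G in residual X, ∀ η ∈ {x | Le x t}, ∀ η' ∈ {x | Le x t},
      xr (xr G (place n η)) (place (n + 1) η') ∈ O →
      xr (xr G (place n η)) (place (n + 1) η') ∈ S ((e₀, e₁, e₂, e₃), (Φ₁, Φ₂, Φ₃, Φ₄)) :=
    (eventually_countable_ball (countable_le t)).2 fun η _ =>
      (eventually_countable_ball (countable_le t)).2 fun η' _ =>
        (tendsto_xr _).eventually ((tendsto_xr _).eventually hOS)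
  have hD0 : ∀ᶠ G in residual X, ∀ η ∈ {x | Le x t},
      xr (col G n) η ∈ cylinder y₀ (d + 1) → F e₀ (xr (col G n) η) k = false :=
    (eventually_countable_ball (countable_le t)).2 fun η _ =>
      (tendsto_col n).eventually ((tendsto_xr η).eventually hb0)
  have hD1 : ∀ᶠ G in residual X, ∀ η ∈ {x | Le x t},
      xr (col G n) η ∈ cylinder (xr y₀ (e1 d)) (d + D) → F e₀ (xr (col G n) η) k = true :=
    (eventually_countable_ball (countable_le t)).2 fun η _ =>
      (tendsto_col n).eventually ((tendsto_xr η).eventually hb1)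
  refine le_of_frequently ((((hfreq.and_eventually hC).and_eventually hD0).and_eventually
    hD1).mono ?_)
  rintro G ⟨⟨⟨⟨hG, hGc, hGy⟩, h1⟩, h2⟩, h3⟩
  rw [← hf.le_iff]
  refine algo (Fy := F e₀) (Fz := F e₁) (M₁ := F e₂) (M₂ := F e₃) Φ₁.2 Φ₂.2 Φ₃.2 Φ₄.2
    (y := col G n) (z := col G (n + 1)) (k := k) hd hD ?_ ?_ ?_
  · intro η η' hη hη' sη sη'
    have g1 := h1 η hη η' hη' (hℓ (place_mem_cylinder _ (place_mem_cylinder _ hGc sη) sη'))
    have g2 := hinv _ η' (n + 1) (by omega) hη' (hinv G η n le_rfl hη hG)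
    have c0 : col (xr (xr G (place n η)) (place (n + 1) η')) n = xr (col G n) η := by
      rw [col_place_ne _ _ (by omega), col_place_self]
    have c1 : col (xr (xr G (place n η)) (place (n + 1) η')) (n + 1) =
        xr (col G (n + 1)) η' := by
      rw [col_place_self, col_place_ne _ _ (by omega)]
    have g3 := (hB₀' e₀ _ g2).2 g1.1.1
    have g4 := (hB₁' e₁ _ g2).2 g1.1.2
    have g5 := g1.2
    simp only [mem_ofPred_eq, c0, c1] at g3 g4 g5
    refine ⟨g5, g3.2.trans ((hf.le_iff _ _).2 ?_), g4.2.trans ((hf.le_iff _ _).2 ?_)⟩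
    · exact ((le_join_left G t).col n).xr (hη.trans (le_join_right G t))
    · exact ((le_join_left G t).col (n + 1)).xr (hη'.trans (le_join_right G t))
  · intro η hη sη
    refine h2 η hη fun i hi => ?_
    have := hGy i (by omega)
    simp only [xr, sη i hi, Bool.xor_false]
    exact this
  · intro η hη sη
    refine h3 η hη fun i hi => ?_
    have := hGy i hi
    simp only [xr, sη i hi]
    rw [← this]

end Vale.Agent.P327
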