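import Vale.Agent.P327.Basic

/-! The string-map reducibility agrees with Turing reducibility of characteristic functions. -/

namespace Vale.Agent.P327

open Filter

/-- Characteristic function as an oracle. -/
def chiB (x : X) : ℕ →. ℕ := fun n => Part.some (cond (x n) 1 0)

/-- `M` approximates `f` from initial segments of `y`. -/
def Appr (M : List Bool → ℕ → Option ℕ) (y : X) (f : ℕ →. ℕ) : Prop :=
  (∀ N n v, M (pre y N) n = some v → v ∈ f n) ∧
    ∀ n v, v ∈ f n → ∀ᶠ N in atTop, M (pre y N) n = some v

theorem appr_of_total {y : X} {g : ℕ → ℕ} (hg : Primrec g) :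
    ∃ M, Primrec₂ M ∧ Appr M y fun n => Part.some (g n) := by
  refine ⟨fun _ n => some (g n), (Primrec.option_some.comp (hg.comp Primrec.snd)).to₂, ?_, ?_⟩
  · intro N n v h
    simp only [Option.some.injEq] at h
    simp [h]
  · intro n v h
    simp only [Part.mem_some_iff] at h
    simp [h]

theorem exists_appr {y : X} {f : ℕ →. ℕ} (hf : Nat.RecursiveIn {chiB y} f) :
    ∃ M, Primrec₂ M ∧ Appr M y f := by
  induction hf with
  | zero => exact appr_of_total (Primrec.const 0)
  | succ => exact appr_of_total Primrec.succ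
  | left => exact appr_of_total (Primrec.fst.comp Primrec.unpair)
  | right => exact appr_of_total (Primrec.snd.comp Primrec.unpair)
  | oracle g hg =>
    rw [Set.mem_singleton_iff] at hg
    subst hg
    refine ⟨fun L n => (L[n]?).map fun b => cond b 1 0, ?_, ?_, ?_⟩
    · exact Primrec.option_map Primrec.list_getElem?
        ((Primrec.dom_bool fun b => cond b 1 0).comp Primrec.snd).to₂
    · intro N n v h
      simp only [Option.map_eq_some_iff] at h
      obtain ⟨b, hb, rfl⟩ := h
      rw [← isPre_pre y N n b hb]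
      simp [chiB]
    · intro n v h
      simp only [chiB, Part.mem_some_iff] at h
      filter_upwards [eventually_gt_atTop n] with N hN
      rw [pre_getElem?, if_pos hN, h]; rfl
  | pair _ _ ih1 ih2 =>
    obtain ⟨M1, p1, s1, c1⟩ := ih1
    obtain ⟨M2, p2, s2, c2⟩ := ih2
    refine ⟨fun L n => (M1 L n).bind fun a => (M2 L n).map (Nat.pair a), ?_, ?_, ?_⟩
    · refine Primrec.option_bind p1 (Primrec.option_map (p2.comp (Primrec.fst.comp Primrec.fst)
        (Primrec.snd.comp Primrec.fst)) ?_)
      exact (Primrec₂.natPair.comp (Primrec.snd.comp Primrec.fst) Primrec.snd).to₂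
    · intro N n v h
      simp only [Option.bind_eq_some_iff, Option.map_eq_some_iff] at h
      obtain ⟨a, ha, b, hb, rfl⟩ := h
      simp only [Seq.seq, Part.map_eq_map, Part.mem_bind_iff, Part.mem_map_iff]
      exact ⟨_, ⟨a, s1 _ _ _ ha, rfl⟩, b, s2 _ _ _ hb, rfl⟩
    · intro n v h
      simp only [Seq.seq, Part.map_eq_map, Part.mem_bind_iff, Part.mem_map_iff] at h
      obtain ⟨_, ⟨a, ha, rfl⟩, b, hb, rfl⟩ := h
      filter_upwards [c1 _ _ ha, c2 _ _ hb] with N h1 h2
      simp [h1, h2]
  | comp _ _ ih1 ih2 =>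
    obtain ⟨M1, p1, s1, c1⟩ := ih1
    obtain ⟨M2, p2, s2, c2⟩ := ih2
    refine ⟨fun L n => (M2 L n).bind fun a => M1 L a, ?_, ?_, ?_⟩
    · exact Primrec.option_bind p2 (p1.comp (Primrec.fst.comp Primrec.fst) Primrec.snd).to₂
    · intro N n v h
      simp only [Option.bind_eq_some_iff] at h
      obtain ⟨a, ha, hb⟩ := h
      exact Part.mem_bind_iff.2 ⟨a, s2 _ _ _ ha, s1 _ _ _ hb⟩
    · intro n v h
      obtain ⟨a, ha, hb⟩ := Part.mem_bind_iff.1 h
      filter_upwards [c2 _ _ ha, c1 _ _ hb] with N h1 h2
      simp [h1, h2]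
  | @prec f h _ _ ih1 ih2 =>
    obtain ⟨M1, p1, s1, c1⟩ := ih1
    obtain ⟨M2, p2, s2, c2⟩ := ih2
    refine ⟨fun L p => Nat.rec (motive := fun _ => Option ℕ) (M1 L p.unpair.1)
      (fun k IH => IH.bind fun i => M2 L (Nat.pair p.unpair.1 (Nat.pair k i))) p.unpair.2,
      ?_, ?_, ?_⟩
    · refine Primrec.nat_rec' (f := fun q : List Bool × ℕ => q.2.unpair.2)
        (g := fun q : List Bool × ℕ => M1 q.1 q.2.unpair.1)
        (h := fun (q : List Bool × ℕ) (r : ℕ × Option ℕ) => r.2.bind fun i =>
          M2 q.1 (Nat.pair q.2.unpair.1 (Nat.pair r.1 i)))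
        (Primrec.snd.comp (Primrec.unpair.comp Primrec.snd))
        (p1.comp Primrec.fst (Primrec.fst.comp (Primrec.unpair.comp Primrec.snd))) ?_
      refine Primrec.option_bind (Primrec.snd.comp Primrec.snd) ?_
      refine (p2.comp (Primrec.fst.comp (Primrec.fst.comp Primrec.fst))
        (Primrec₂.natPair.comp (Primrec.fst.comp (Primrec.unpair.comp
          (Primrec.snd.comp (Primrec.fst.comp Primrec.fst))))
          (Primrec₂.natPair.comp (Primrec.fst.comp (Primrec.snd.comp Primrec.fst))
            Primrec.snd))).to₂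
    · intro N p
      dsimp only
      generalize p.unpair.1 = a
      generalize p.unpair.2 = n
      induction n with
      | zero => intro v hv; exact s1 _ _ _ hv
      | succ n ih =>
        intro v hv
        simp only [Option.bind_eq_some_iff] at hv
        obtain ⟨i, hi, hv⟩ := hv
        simp only [Part.bind_eq_bind, Part.mem_bind_iff]
        exact ⟨i, ih i hi, s2 _ _ _ hv⟩
    · intro p
      dsimp only
      generalize p.unpair.1 = a
      generalize p.unpair.2 = n
      induction n with
      | zero => intro v hv; exact c1 _ _ hv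
      | succ n ih =>
        intro v hv
        simp only [Part.bind_eq_bind, Part.mem_bind_iff] at hv
        obtain ⟨i, hi, hv⟩ := hv
        filter_upwards [ih i hi, c2 _ _ hv] with N h1 h2
        simp [h1, h2]
  | @rfind f _ ih =>
    obtain ⟨M, p, s, c⟩ := ih
    let idx : List Bool → ℕ → ℕ := fun L a =>
      (List.range L.length).findIdx fun m => (M L (Nat.pair a m)).getD 0 == 0
    have hidx : Primrec₂ idx := by
      refine Primrec.list_findIdx (Primrec.list_range.comp (Primrec.list_length.comp Primrec.fst))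
        ?_
      exact (Primrec.beq.comp (Primrec.option_getD.comp (p.comp (Primrec.fst.comp Primrec.fst)
        (Primrec₂.natPair.comp (Primrec.snd.comp Primrec.fst) Primrec.snd)) (Primrec.const 0))
        (Primrec.const 0)).to₂
    have hlt : ∀ L a m, m < idx L a → ∃ w, M L (Nat.pair a m) = some (w + 1) := by
      intro L a m hm
      have := List.not_of_lt_findIdx hm
      simp only [List.getElem_range, beq_eq_false_iff_ne, ne_eq] at this
      rcases hM : M L (Nat.pair a m) with _ | _ | w
      · simp [hM] at this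
      · simp [hM] at this
      · exact ⟨w, rfl⟩
    refine ⟨fun L a => if M L (Nat.pair a (idx L a)) = some 0 then some (idx L a) else none,
      ?_, ?_, ?_⟩
    · refine Primrec.ite (Primrec.eq.comp (p.comp Primrec.fst
        (Primrec₂.natPair.comp Primrec.snd hidx)) (Primrec.const (some 0)))
        (Primrec.option_some.comp hidx) (Primrec.const none)
    · intro N a v hv
      dsimp only at hv
      split_ifs at hv with h0
      simp only [Option.some.injEq] at hv
      subst hv
      refine Nat.mem_rfind.2 ⟨?_, fun {m} hm => ?_⟩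
      · simp only [Part.map_eq_map, Part.mem_map_iff]
        exact ⟨0, s _ _ _ h0, by simp⟩
      · obtain ⟨w, hw⟩ := hlt _ _ _ hm
        simp only [Part.map_eq_map, Part.mem_map_iff]
        exact ⟨w + 1, s _ _ _ hw, by simp⟩
    · intro a v hv
      obtain ⟨h0, hlow⟩ := Nat.mem_rfind.1 hv
      simp only [Part.map_eq_map, Part.mem_map_iff] at h0 hlow
      obtain ⟨z, hz, hz0⟩ := h0
      have hz1 : z = 0 := by simpa using hz0
      subst hz1
      have h1 : ∀ᶠ N in atTop, ∀ m ∈ Finset.range v, ∃ w,
          M (pre y N) (Nat.pair a m) = some (w + 1) := by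
        refine (Filter.eventually_all_finset _).2 fun m hm => ?_
        obtain ⟨w, hw, hw0⟩ := hlow (Finset.mem_range.1 hm)
        have hw1 : w ≠ 0 := by simpa using hw0
        obtain ⟨w, rfl⟩ := Nat.exists_eq_succ_of_ne_zero hw1
        filter_upwards [c _ _ hw] with N hN
        exact ⟨w, hN⟩
      filter_upwards [h1, c _ _ hz, eventually_gt_atTop v] with N h1 h2 h3
      have : idx (pre y N) a = v := by
        show List.findIdx _ _ = v
        rw [List.findIdx_eq (by simpa using h3)]
        refine ⟨by simp [h2], fun j hj => ?_⟩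
        obtain ⟨w, hw⟩ := h1 j (Finset.mem_range.2 hj)
        simp [hw]
      simp [this, h2]

theorem le_of_recursiveIn {x y : X} (h : Nat.RecursiveIn {chiB y} (chiB x)) : Le x y := by
  obtain ⟨M, p, s, c⟩ := exists_appr h
  rw [le_iff_ured]
  refine URed.ofM (M := fun L n => (M L n).map fun v => v == 1) ?_ ?_ ?_
  · exact Primrec.option_map p (Primrec.beq.comp Primrec.snd (Primrec.const 1)).to₂
  · intro _ N n v hv
    simp only [Option.map_eq_some_iff] at hv
    obtain ⟨w, hw, rfl⟩ := hv
    have := s _ _ _ hw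
    simp only [chiB, Part.mem_some_iff] at this
    subst this
    cases x n <;> simp
  · intro _ n
    filter_upwards [c n (cond (x n) 1 0) (by simp [chiB])] with N hN
    simp [hN]

/-- Total functions recursive in an oracle set. -/
def TR (O : Set (ℕ →. ℕ)) (f : ℕ → ℕ) : Prop := Nat.RecursiveIn O fun n => Part.some (f n)

theorem TR.of_primrec {O} {f : ℕ → ℕ} (h : Primrec f) : TR O f :=
  (Primrec.nat_iff.1 h).recursiveIn

theorem TR.comp {O} {f g : ℕ → ℕ} (hf : TR O f) (hg : TR O g) : TR O fun n => f (g n) :=
  (Nat.RecursiveIn.comp hf hg).of_eq fun n => by simp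

theorem TR.pair {O} {f g : ℕ → ℕ} (hf : TR O f) (hg : TR O g) :
    TR O fun n => Nat.pair (f n) (g n) :=
  (Nat.RecursiveIn.pair hf hg).of_eq fun n => by simp [Seq.seq]

theorem TR.prec {O} {f g : ℕ → ℕ} (hf : TR O f) (hg : TR O g) :
    TR O fun p => Nat.rec (motive := fun _ => ℕ) (f p.unpair.1)
      (fun k i => g (Nat.pair p.unpair.1 (Nat.pair k i))) p.unpair.2 :=
  (Nat.RecursiveIn.prec hf hg).of_eq fun p => by
    dsimp only
    generalize p.unpair.1 = a
    generalize p.unpair.2 = n
    induction n with
    | zero => rfl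
    | succ n ih => simp only [ih]; simp

theorem TR.find {O} {f : ℕ → ℕ} (hf : TR O f) (h : ∀ a, ∃ n, f (Nat.pair a n) = 0) :
    TR O fun a => Nat.find (h a) :=
  (Nat.RecursiveIn.rfind hf).of_eq fun a => by
    rw [Part.eq_some_iff]
    refine Nat.mem_rfind.2 ⟨?_, fun {m} hm => ?_⟩
    · simpa using Nat.find_spec (h a)
    · simpa using Nat.find_min (h a) hm

theorem recursiveIn_of_le {x y : X} (h : Le x y) : Nat.RecursiveIn {chiB y} (chiB x) := by
  obtain ⟨Φ, hΦ, hc⟩ := h
  have h0 : TR {chiB y} fun n => cond (y n) 1 0 := Nat.RecursiveIn.oracle _ rfl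
  let dec : ℕ → List Bool := fun n => (Encodable.decode (α := List Bool) n).getD []
  have hdec : Primrec dec := Primrec.option_getD.comp Primrec.decode (Primrec.const [])
  have hde : ∀ L, dec (Encodable.encode L) = L := fun L => by simp [dec]
  -- the code of the first `N` bits
  have h1 : TR {chiB y} fun N => Encodable.encode (pre y N) := by
    have a1 : Primrec fun q : ℕ => Encodable.encode (dec q.unpair.1 ++ [q.unpair.2 == 1]) :=
      Primrec.encode.comp (Primrec.list_concat.comp (hdec.comp (Primrec.fst.comp Primrec.unpair))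
        (Primrec.beq.comp (Primrec.snd.comp Primrec.unpair) (Primrec.const 1)))
    have a2 : Primrec fun q : ℕ => q.unpair.2.unpair.2 :=
      Primrec.snd.comp (Primrec.unpair.comp (Primrec.snd.comp Primrec.unpair))
    have a3 : Primrec fun q : ℕ => q.unpair.2.unpair.1 :=
      Primrec.fst.comp (Primrec.unpair.comp (Primrec.snd.comp Primrec.unpair))
    have a4 := (TR.of_primrec a1).comp ((TR.of_primrec a2).pair (h0.comp (TR.of_primrec a3)))
    have a5 := (TR.prec (TR.of_primrec (Primrec.const (Encodable.encode ([] : List Bool))))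
      a4).comp (TR.of_primrec (Primrec₂.natPair.comp (Primrec.const 0) Primrec.id))
    refine Nat.RecursiveIn.of_eq a5 fun N => ?_
    congr 1
    simp only [Nat.unpair_pair, id]
    induction N with
    | zero => rfl
    | succ N ih =>
      simp only [ih, hde]
      congr 1
      unfold pre
      rw [List.range_succ, List.map_append, List.map_singleton]
      cases y N <;> rfl
  have b1 : Primrec fun q : ℕ => if q.unpair.1 < (Φ (dec q.unpair.2)).length then 0 else 1 :=
    Primrec.ite (Primrec.nat_lt.comp (Primrec.fst.comp Primrec.unpair)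
      (Primrec.list_length.comp (hΦ.comp (hdec.comp (Primrec.snd.comp Primrec.unpair)))))
      (Primrec.const 0) (Primrec.const 1)
  have b2 := (TR.of_primrec b1).comp ((TR.of_primrec (Primrec.fst.comp Primrec.unpair)).pair
    (h1.comp (TR.of_primrec (Primrec.snd.comp Primrec.unpair))))
  simp only [Nat.unpair_pair, hde] at b2
  have b3 : ∀ a, ∃ n, (fun q : ℕ => if q.unpair.1 < (Φ (pre y q.unpair.2)).length then 0 else 1)
      (Nat.pair a n) = 0 := by
    intro a
    obtain ⟨N, hN⟩ := (hc.2.eventually (eventually_gt_atTop a)).exists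
    exact ⟨N, by simpa using hN⟩
  obtain ⟨k, b4, hk⟩ : ∃ k : ℕ → ℕ, TR {chiB y} k ∧ ∀ n, n < (Φ (pre y (k n))).length := by
    refine ⟨_, TR.find b2 b3, fun n => ?_⟩
    have := Nat.find_spec (b3 n)
    generalize Nat.find (b3 n) = N at this ⊢
    simpa using this
  have b5 : Primrec fun q : ℕ => cond ((Φ (dec q.unpair.2)).getD q.unpair.1 false) 1 0 :=
    Primrec.cond ((Primrec.list_getD false).comp (hΦ.comp (hdec.comp
      (Primrec.snd.comp Primrec.unpair))) (Primrec.fst.comp Primrec.unpair))
      (Primrec.const 1) (Primrec.const 0)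
  have b6 := (TR.of_primrec b5).comp ((TR.of_primrec Primrec.id).pair (h1.comp b4))
  refine Nat.RecursiveIn.of_eq b6 fun n => ?_
  simp only [Nat.unpair_pair, hde, id, chiB]
  rw [List.getD_eq_getElem?_getD, (hc.1 _).getElem? (hk n)]
  rfl

theorem le_iff_turingReducible {x y : X} : Le x y ↔ TuringReducible (chiB x) (chiB y) := by
  unfold TuringReducible
  rw [RecursiveIn.iff_nat]
  exact ⟨recursiveIn_of_le, le_of_recursiveIn⟩

end Vale.Agent.P327
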