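import Vale.Agent.P327.Forcing

/-! An automorphism agrees with Baire measurable data on an invariant nonmeager set. -/

namespace Vale.Agent.P327

open Filter Set PiNat

/-- `f` induces an automorphism of the degrees. -/
structure Aut (f : X → X) : Prop where
  le_iff : ∀ x x', Le (f x) (f x') ↔ Le x x'
  surj : ∀ y, ∃ x, Eqv (f x) y

variable {f : X → X}

theorem Aut.join_le (hf : Aut f) (u v : X) : Le (join (f u) (f v)) (f (join u v)) :=
  Le.join ((hf.le_iff _ _).2 (le_join_left u v)) ((hf.le_iff _ _).2 (le_join_right u v))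

theorem Aut.le_join (hf : Aut f) {x u v : X} (h : Le x (join u v)) :
    Le (f x) (join (f u) (f v)) := by
  obtain ⟨w, hw⟩ := hf.surj (join (f u) (f v))
  refine Le.trans ((hf.le_iff _ _).2 (h.trans (Le.join ?_ ?_))) hw.1
  · exact (hf.le_iff _ _).1 ((le_join_left _ _).trans hw.2)
  · exact (hf.le_iff _ _).1 ((le_join_right _ _).trans hw.2)

/-- Every value of `f` is the value of one of countably many Borel maps. -/
theorem Aut.exists_family (hf : Aut f) : ∃ F : PF → X → X, (∀ Φ, Measurable (F Φ)) ∧
    ∀ x, ∃ Φ, F Φ x = f x := by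
  classical
  obtain ⟨g, c₀, h⟩ := exists_coding
  obtain ⟨c₁, hc₁⟩ := hf.surj c₀
  choose g' hg' using fun i => hf.surj (g i)
  refine ⟨fun Φ x i => decide (Le (g' i) (ev Φ.1 (join x c₁))), fun Φ => measurable_decide fun i =>
    measurable_le measurable_const ((measurable_ev _).comp
      (measurable_join measurable_id measurable_const)), fun x => ?_⟩
  obtain ⟨a, ha, hj⟩ := h (f x)
  obtain ⟨a', ha'⟩ := hf.surj a
  have h1 : Le a' (join x c₁) := by
    rw [← hf.le_iff]
    refine ha'.1.trans (ha.trans (Le.join ?_ ?_))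
    · exact (hf.le_iff _ _).2 (le_join_left _ _)
    · exact hc₁.2.trans ((hf.le_iff _ _).2 (le_join_right _ _))
  obtain ⟨Φ, hΦ⟩ := h1.exists_ev
  refine ⟨Φ, funext fun i => ?_⟩
  dsimp only
  rw [hΦ]
  have h2 : Le (g' i) a' ↔ f x i = true := by
    rw [← hj i, ← hf.le_iff]
    exact ⟨fun h => (hg' i).2.trans (h.trans ha'.1), fun h => (hg' i).1.trans (h.trans ha'.2)⟩
  cases hx : f x i
  · simpa [hx] using h2
  · simpa [hx] using h2

/-- Greatest lower bounds in the preorder. -/
def IsGlb (r a b : X) : Prop := Le r a ∧ Le r b ∧ ∀ z, Le z a → Le z b → Le z r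

theorem measurable_isGlb {Z : Type*} [MeasurableSpace Z] {r a b : Z → X} (hr : Measurable r)
    (ha : Measurable a) (hb : Measurable b) : Measurable fun z => IsGlb (r z) (a z) (b z) := by
  have e : (fun z => IsGlb (r z) (a z) (b z)) = fun z => Le (r z) (a z) ∧ Le (r z) (b z) ∧
      ∀ Φ : PF, Le (ev Φ.1 (a z)) (a z) → Le (ev Φ.1 (a z)) (b z) → Le (ev Φ.1 (a z)) (r z) := by
    funext z
    refine propext ⟨fun h => ⟨h.1, h.2.1, fun Φ => h.2.2 _⟩, fun h => ⟨h.1, h.2.1, ?_⟩⟩
    intro w h1 h2
    obtain ⟨Φ, rfl⟩ := h1.exists_ev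
    exact h.2.2 Φ h1 h2
  rw [e]
  have hev : ∀ Φ : PF, Measurable fun z => ev Φ.1 (a z) := fun Φ => (measurable_ev _).comp ha
  exact (measurable_le hr ha).and ((measurable_le hr hb).and (Measurable.forall fun Φ =>
    (measurable_le (hev Φ) ha).imp ((measurable_le (hev Φ) hb).imp (measurable_le (hev Φ) hr))))

theorem IsGlb.iff {r r' a b : X} (h : IsGlb r a b) : Eqv r r' ↔ IsGlb r' a b :=
  ⟨fun e => ⟨e.2.trans h.1, e.2.trans h.2.1, fun z h1 h2 => (h.2.2 z h1 h2).trans e.1⟩,
    fun h' => ⟨h'.2.2 _ h.1 h.2.1, h.2.2 _ h'.1 h'.2.1⟩⟩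

theorem Aut.isGlb (hf : Aut f) {r a u v : X} (h : IsGlb r a (join u v)) :
    IsGlb (f r) (f a) (join (f u) (f v)) := by
  refine ⟨(hf.le_iff _ _).2 h.1, hf.le_join h.2.1, fun z h1 h2 => ?_⟩
  obtain ⟨w, hw⟩ := hf.surj z
  refine hw.2.trans ((hf.le_iff _ _).2 (h.2.2 w ?_ ?_))
  · exact (hf.le_iff _ _).1 (hw.1.trans h1)
  · exact (hf.le_iff _ _).1 (hw.1.trans (h2.trans (hf.join_le u v)))

theorem exists_generic : ∃ g : X, ∀ᶠ G in residual X, ∀ i,
    IsGlb (col G i) G (join (xr g G) (col g i)) := by
  have hm : Measurable fun p : X × X => ∀ i,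
      IsGlb (col p.1 i) p.1 (join (xr p.2 p.1) (col p.2 i)) :=
    Measurable.forall fun i => measurable_isGlb ((continuous_col i).comp continuous_fst).measurable
      measurable_fst (continuous_join (continuous_xr continuous_snd continuous_fst)
        ((continuous_col i).comp continuous_snd)).measurable
  have h := ku_swap (measurableSet_setOfPred.2 hm).baireMeasurableSet (Eventually.of_forall ?_)
  · exact (dense_of_mem_residual h).nonempty
  intro G
  filter_upwards [eventually_glb G] with g hg i
  refine ⟨(Le.refl G).col i, ?_, hg i⟩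
  refine (((le_join_left (xr g G) (col g i)).col i).xr (le_join_right _ _)).of_eq fun n => ?_
  simp only [xr, col]
  cases g (Nat.pair i n) <;> simp

/-- The reals computed by `t`, as a discrete space. -/
structure Gam (t : X) where
  val : X
  prop : Le val t

instance (t : X) : TopologicalSpace (Gam t) := ⊥
instance (t : X) : DiscreteTopology (Gam t) := ⟨rfl⟩
instance (t : X) : MeasurableSpace (Gam t) := borel _
instance (t : X) : BorelSpace (Gam t) := ⟨rfl⟩
instance (t : X) : Countable (Gam t) := by
  have := (countable_le t).to_subtype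
  refine Function.Injective.countable (f := fun γ : Gam t => (⟨γ.1, γ.2⟩ : {x | Le x t})) ?_
  rintro ⟨a, _⟩ ⟨b, _⟩ h
  simp only [Subtype.mk.injEq] at h
  subst h
  rfl

/-- The zero element. -/
def Gam.zero (t : X) : Gam t := ⟨fun _ => false, Le.of_primrec (Primrec.const false) t⟩

instance (t : X) : Nonempty (Gam t) := ⟨Gam.zero t⟩

/-- Translate every column. -/
def act {t : X} (l : ℕ → Gam t) (G : X) : X := xr G fun m => (l m.unpair.1).val m.unpair.2

theorem continuous_act {t : X} : Continuous fun p : X × (ℕ → Gam t) => act p.2 p.1 := by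
  refine continuous_xr continuous_fst (continuous_pi fun m => ?_)
  exact (continuous_of_discreteTopology (f := fun γ : Gam t => γ.val m.unpair.2)).comp
    ((continuous_apply _).comp continuous_snd)

theorem col_act {t : X} (l : ℕ → Gam t) (G : X) (i : ℕ) :
    col (act l G) i = xr (col G i) (l i).val := by
  funext n; simp [col, act, xr]

theorem tendsto_act {t : X} : Tendsto (fun p : X × (ℕ → Gam t) => act p.2 p.1) (residual _)
    (residual X) := by
  have h1 : Tendsto (fun p : X × (ℕ → Gam t) => (act p.2 p.1, p.2)) (residual _) (residual _) :=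
    tendsto_residual_of_involutive (continuous_act.prodMk continuous_snd) fun p => by
      simp [act]
  exact (tendsto_residual_of_isOpenMap continuous_fst isOpenMap_fst).comp h1

/-- A real placed in column `m`. -/
def place (m : ℕ) (η : X) : X := fun i => if i.unpair.1 = m then η i.unpair.2 else false

theorem Aut.exists_invariant (hf : Aut f) (t : X) : ∃ (n : ℕ) (E : X → Prop),
    (∃ᶠ G in residual X, E G) ∧
    (∀ G η m, n ≤ m → Le η t → E G → E (xr G (place m η))) ∧
    ∀ m, n ≤ m → ∀ ρ : X → X, Measurable ρ → ∃ B : Set X, BaireMeasurableSet B ∧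
      ∀ G, E G → (Eqv (f (col G m)) (ρ G) ↔ G ∈ B) := by
  obtain ⟨F, hFm, hF⟩ := hf.exists_family
  obtain ⟨g, hg⟩ := exists_generic
  let R : PF × PF → X → ℕ → X → Prop := fun k G i r =>
    IsGlb r (F k.1 G) (join (F k.2 (xr g G)) (f (col g i)))
  have hR : ∀ {Z : Type} [MeasurableSpace Z] (k : PF × PF) (i : ℕ) {a r : Z → X},
      Measurable a → Measurable r → Measurable fun z => R k (a z) i (r z) := by
    intro Z _ k i a r ha hr
    exact measurable_isGlb hr ((hFm _).comp ha) (measurable_join ((hFm _).comp
      ((continuous_xr continuous_const continuous_id).measurable.comp ha)) measurable_const)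
  have h1 : ∀ᶠ G in residual X, ∃ k, ∀ i, R k G i (f (col G i)) := by
    filter_upwards [hg] with G hG
    obtain ⟨Φ, hΦ⟩ := hF G
    obtain ⟨Ψ, hΨ⟩ := hF (xr g G)
    refine ⟨(Φ, Ψ), fun i => ?_⟩
    simp only [R, hΦ, hΨ]
    exact hf.isGlb (hG i)
  have h2 := ku1 (tendsto_act (t := t) h1)
  let base : (Σ n : ℕ, Fin n → Gam t) → ℕ → Gam t := fun p i =>
    if h : i < p.1 then p.2 ⟨i, h⟩ else Gam.zero t
  have h3 : ∀ᶠ G in residual X, ∃ q : (PF × PF) × (Σ n : ℕ, Fin n → Gam t),
      ∀ᶠ l in residual (ℕ → Gam t), l ∈ cylinder (base q.2) q.2.1 →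
        ∀ i, R q.1 (act l G) i (f (col (act l G) i)) := by
    filter_upwards [h2] with G hG
    have hG' : ∃ᶠ l in residual (ℕ → Gam t), ∃ k, ∀ i, R k (act l G) i (f (col (act l G) i)) :=
      ((frequently_open isOpen_univ univ_nonempty).and_eventually hG).mono fun l hl => hl.2
    obtain ⟨k, hk⟩ := frequently_exists_countable hG'
    have hm : Measurable fun l : ℕ → Gam t => ∀ i, R k (act l G) i (f (col (act l G) i)) := by
      refine Measurable.forall fun i => hR k i
        (continuous_act.comp (Continuous.prodMk_right G)).measurable ?_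
      simp only [col_act]
      exact ((continuous_of_discreteTopology (f := fun γ : Gam t => f (xr (col G i) γ.val))).comp
        (continuous_apply i)).measurable
    obtain ⟨y, -, L, -, hL⟩ := localize_cyl (V := univ)
      (measurableSet_setOfPred.2 hm).baireMeasurableSet isOpen_univ
      (hk.mono fun l hl => ⟨trivial, hl⟩)
    refine ⟨(k, ⟨L, fun i => y i⟩), hL.mono fun l hl hl' => hl fun i hi => ?_⟩
    have := hl' i hi
    simpa [base, hi] using this
  obtain ⟨⟨k, p⟩, hq⟩ := frequently_exists_countable
    (((frequently_open isOpen_univ univ_nonempty).and_eventually h3).mono fun G hG => hG.2)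
  dsimp only at hq
  refine ⟨p.1, _, hq, ?_, ?_⟩
  · intro G η m hm hη hG
    let tr : (ℕ → Gam t) → ℕ → Gam t := fun l =>
      Function.update l m ⟨xr (l m).val η, (l m).prop.xr hη⟩
    have htr : Tendsto tr (residual _) (residual _) := by
      refine tendsto_residual_of_involutive ?_ fun l => ?_
      · exact continuous_id.update m ((continuous_of_discreteTopology
          (f := fun γ : Gam t => (⟨xr γ.val η, γ.prop.xr hη⟩ : Gam t))).comp (continuous_apply m))
      · simp [tr]
    filter_upwards [htr.eventually hG] with l hl hl'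
    have e : act (tr l) G = act l (xr G (place m η)) := by
      funext i
      simp only [act, xr, place, tr]
      by_cases h : i.unpair.1 = m
      · simp only [h, Function.update_self, if_true, xr]
        cases G i <;> cases η i.unpair.2 <;> simp
      · simp [h]
    rw [← e]
    refine hl fun i hi => ?_
    simp only [tr]
    rw [Function.update_of_ne (by omega)]
    exact hl' i hi
  · intro m hm ρ hρ
    have hmeas : Measurable fun z : X × (ℕ → Gam t) => z.2 ∈ cylinder (base p) (m + 1) →
        R k (act z.2 z.1) m (ρ z.1) :=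
      Measurable.imp (measurableSet_setOfPred.1
        (((isOpen_cylinder _ _ _).preimage continuous_snd).measurableSet))
        (hR k m continuous_act.measurable (hρ.comp measurable_fst))
    refine ⟨_, ku3 (measurableSet_setOfPred.2 hmeas).baireMeasurableSet, fun G hG => ?_⟩
    have h4 : ∀ᶠ l in residual (ℕ → Gam t), l ∈ cylinder (base p) (m + 1) →
        R k (act l G) m (f (col G m)) := by
      filter_upwards [hG] with l hl hl'
      have := hl (cylinder_anti _ (by omega) hl') m
      rw [col_act, hl' m (by omega)] at this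
      have e : xr (col G m) (base p m).val = col G m := by
        funext i; simp [base, not_lt.2 hm, xr, Gam.zero]
      rwa [e] at this
    constructor
    · intro h
      filter_upwards [h4] with l hl hl'
      exact (hl hl').iff.1 h
    · intro h
      obtain ⟨l, ⟨hl, h5⟩, h6⟩ := (((frequently_open (isOpen_cylinder _ (base p) (m + 1))
        ⟨_, self_mem_cylinder _ _⟩).and_eventually h4).and_eventually h).exists
      exact (h5 hl).iff.2 (h6 hl)

end Vale.Agent.P327
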